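import Mathlib

/-!
# Three-marginal optimal transport with Coulomb cost: definitions
-/

namespace Vale.Agent.P121

open MeasureTheory
open scoped ENNReal

/-- The Coulomb cost `1/|x-y| + 1/|x-z| + 1/|y-z|` of three points of `ℝ^d`, with value `∞` as
soon as two of the points coincide. -/
noncomputable def coulomb {d : ℕ} (x y z : EuclideanSpace ℝ (Fin d)) : ℝ≥0∞ :=
  (ENNReal.ofReal ‖x - y‖)⁻¹ + (ENNReal.ofReal ‖x - z‖)⁻¹ + (ENNReal.ofReal ‖y - z‖)⁻¹

/-- `Π(μ,μ,μ)`: the Borel probability measures on `(ℝ^d)^3` whose three coordinate marginals all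
equal `μ`. -/
def couplings {d : ℕ} (μ : Measure (EuclideanSpace ℝ (Fin d))) :
    Set (Measure (EuclideanSpace ℝ (Fin d) × EuclideanSpace ℝ (Fin d) ×
      EuclideanSpace ℝ (Fin d))) :=
  {π | IsProbabilityMeasure π ∧ π.map (fun p => p.1) = μ ∧ π.map (fun p => p.2.1) = μ ∧
    π.map (fun p => p.2.2) = μ}

/-- The Kantorovich value `ℰ(μ)`: the infimum of the transport cost over `Π(μ,μ,μ)`. -/
noncomputable def kantorovich {d : ℕ} (μ : Measure (EuclideanSpace ℝ (Fin d))) : ℝ≥0∞ :=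
  ⨅ π ∈ couplings μ, ∫⁻ p, coulomb p.1 p.2.1 p.2.2 ∂π

/-- `T₂, T₃` are Borel maps pushing `μ` forward to `μ`, and the Monge plan `(Id, T₂, T₃)_# μ` has
cost equal to the Kantorovich value `ℰ(μ)`. -/
def IsOptimalMonge {d : ℕ} (μ : Measure (EuclideanSpace ℝ (Fin d)))
    (T₂ T₃ : EuclideanSpace ℝ (Fin d) → EuclideanSpace ℝ (Fin d)) : Prop :=
  Measurable T₂ ∧ Measurable T₃ ∧ μ.map T₂ = μ ∧ μ.map T₃ = μ ∧
    ∫⁻ x, coulomb x (T₂ x) (T₃ x) ∂μ = kantorovich μ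

end Vale.Agent.P121
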