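import Vale.Agent.P121.Potential

/-!
# The energy inequality for the five regions
-/

namespace Vale.Agent.P121

open scoped RealInnerProductSpace
open Metric

variable {E : Type*} [NormedAddCommGroup E] [InnerProductSpace ℝ E]

/-- parameter space: a tiny ball around the origin -/
abbrev XX (E : Type*) [NormedAddCommGroup E] := Metric.closedBall (0 : E) (1 / 10000000000)

/-- a family of critical triples over the parameter space -/
structure IsFam (e : E) (q r : XX E → E) : Prop where
  unit : ‖e‖ = 1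
  reg : ∀ t, Region e t.1 (q t) (r t)
  sol : ∀ t, Sol e t.1 (q t) (r t)

theorem exists_isFam [CompleteSpace E] {e : E} (he : ‖e‖ = 1) : ∃ q r : XX E → E, IsFam e q r := by
  have h : ∀ t : XX E, ∃ y z : E, Region e t.1 y z ∧ Sol e t.1 y z := fun t =>
    exists_sol he (mem_closedBall_zero_iff.mp t.2)
  choose q r h using h
  exact ⟨q, r, he, fun t => (h t).1, fun t => (h t).2⟩

/-- index of the five regions -/
abbrev II := Option (Bool × Bool)

/-- the points -/
noncomputable def pt (q r : Bool → XX E → E) : II → XX E → E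
  | none, t => t.1
  | some (f, true), t => q f t
  | some (f, false), t => r f t

/-- the potential at the points -/
noncomputable def hh (e : Bool → E) (q r : Bool → XX E → E) : II → XX E → ℝ
  | none, t => 12 / 5 - 500000 * ‖t.1‖ ^ 2
  | some (f, true), t => 1 / 20 - 500000 * ‖q f t - mc (e f)‖ ^ 2
  | some (f, false), t => cR t.1 (q f t) (r f t) - (12 / 5 - 500000 * ‖t.1‖ ^ 2)
      - (1 / 20 - 500000 * ‖q f t - mc (e f)‖ ^ 2)

/-- centres of the outer regions -/
def ctr (e : Bool → E) : Bool × Bool → E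
  | (f, true) => e f
  | (f, false) => - e f

omit [InnerProductSpace ℝ E] in
lemma cR_comm12 (x y z : E) : cR x y z = cR y x z := by
  unfold cR; rw [norm_sub_rev x y]; ring

omit [InnerProductSpace ℝ E] in
lemma cR_comm23 (x y z : E) : cR x y z = cR x z y := by
  unfold cR; rw [norm_sub_rev y z]; ring

/-- triples of indexed points forming a critical triple -/
def Tri (a b c : II × XX E) : Prop :=
  ∃ (t : XX E) (f : Bool),
    (a = (none, t) ∧ b = (some (f, true), t) ∧ c = (some (f, false), t)) ∨
    (a = (none, t) ∧ c = (some (f, true), t) ∧ b = (some (f, false), t)) ∨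
    (b = (none, t) ∧ a = (some (f, true), t) ∧ c = (some (f, false), t)) ∨
    (b = (none, t) ∧ c = (some (f, true), t) ∧ a = (some (f, false), t)) ∨
    (c = (none, t) ∧ a = (some (f, true), t) ∧ b = (some (f, false), t)) ∨
    (c = (none, t) ∧ b = (some (f, true), t) ∧ a = (some (f, false), t))

omit [InnerProductSpace ℝ E] in
lemma Tri.swap12 {a b c : II × XX E} (h : Tri a b c) : Tri b a c := by
  obtain ⟨t, f, h⟩ := h
  exact ⟨t, f, by tauto⟩

omit [InnerProductSpace ℝ E] in
lemma Tri.swap23 {a b c : II × XX E} (h : Tri a b c) : Tri a c b := by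
  obtain ⟨t, f, h⟩ := h
  exact ⟨t, f, by tauto⟩

section
variable {e : Bool → E} {q r : Bool → XX E → E}

omit [InnerProductSpace ℝ E] in
lemma norm_pt_none (t : XX E) : ‖t.1‖ ≤ 1 / 10000000000 :=
  mem_closedBall_zero_iff.mp t.2

lemma pt_near (hF : ∀ f, IsFam (e f) (q f) (r f)) (fs : Bool × Bool) (t : XX E) :
    ‖pt q r (some fs) t - ctr e fs‖ ≤ 1 / 100 := by
  obtain ⟨f, s⟩ := fs
  cases s with
  | true =>
    have := ((hF f).reg t).hy
    simp only [pt, ctr]; linarith
  | false =>
    have := ((hF f).reg t).hz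
    simp only [pt, ctr, sub_neg_eq_add]; linarith

omit [InnerProductSpace ℝ E] in
lemma norm_ctr (he : ∀ f, ‖e f‖ = 1) (fs : Bool × Bool) : ‖ctr e fs‖ = 1 := by
  obtain ⟨f, s⟩ := fs
  cases s <;> simp [ctr, he]

lemma hP_bound (t : XX E) : 239 / 100 ≤ hh e q r none t ∧ hh e q r none t ≤ 12 / 5 := by
  have h := norm_pt_none t
  have h0 := norm_nonneg t.1
  simp only [hh]
  constructor <;> nlinarith

lemma norm_q_sub_mc (hF : ∀ f, IsFam (e f) (q f) (r f)) (f : Bool) (t : XX E) :
    ‖q f t - mc (e f)‖ ≤ 9 / 800000 := by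
  have h1 := ((hF f).reg t).hy
  have h2 : ‖(1 / 800000 : ℝ) • e f‖ = 1 / 800000 := by
    rw [norm_smul, (hF f).unit]; norm_num
  calc ‖q f t - mc (e f)‖ = ‖(q f t - e f) + (1 / 800000 : ℝ) • e f‖ := by
        congr 1; rw [mc, sub_smul, one_smul]; abel
    _ ≤ ‖q f t - e f‖ + ‖(1 / 800000 : ℝ) • e f‖ := norm_add_le _ _
    _ ≤ 9 / 800000 := by rw [h2]; linarith

lemma hQ_bound (hF : ∀ f, IsFam (e f) (q f) (r f)) (f : Bool) (t : XX E) :
    49 / 1000 ≤ hh e q r (some (f, true)) t ∧ hh e q r (some (f, true)) t ≤ 1 / 20 := by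
  have h := norm_q_sub_mc hF f t
  have h0 := norm_nonneg (q f t - mc (e f))
  simp only [hh]
  constructor <;> nlinarith

lemma cR_bound (hF : ∀ f, IsFam (e f) (q f) (r f)) (f : Bool) (t : XX E) :
    2486 / 1000 ≤ cR t.1 (q f t) (r f t) ∧ cR t.1 (q f t) (r f t) ≤ 2515 / 1000 := by
  have a1 := abs_le.mp (((hF f).reg t).xy (hF f).unit)
  have a2 := abs_le.mp (((hF f).reg t).xz (hF f).unit)
  have a3 := abs_le.mp (((hF f).reg t).yz (hF f).unit)
  have b1 : ‖t.1 - q f t‖⁻¹ ≤ (49999 / 50000)⁻¹ := inv_anti₀ (by norm_num) (by linarith)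
  have b2 : ‖t.1 - r f t‖⁻¹ ≤ (989 / 1000)⁻¹ := inv_anti₀ (by norm_num) (by linarith)
  have b3 : ‖q f t - r f t‖⁻¹ ≤ (1989 / 1000)⁻¹ := inv_anti₀ (by norm_num) (by linarith)
  have c1 : (50001 / 50000)⁻¹ ≤ ‖t.1 - q f t‖⁻¹ := inv_anti₀ (by linarith) (by linarith)
  have c2 : (1011 / 1000)⁻¹ ≤ ‖t.1 - r f t‖⁻¹ := inv_anti₀ (by linarith) (by linarith)
  have c3 : (2011 / 1000)⁻¹ ≤ ‖q f t - r f t‖⁻¹ := inv_anti₀ (by linarith) (by linarith)
  unfold cR
  constructor <;> norm_num at * <;> linarith

lemma hR_bound (hF : ∀ f, IsFam (e f) (q f) (r f)) (f : Bool) (t : XX E) :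
    3 / 100 ≤ hh e q r (some (f, false)) t ∧ hh e q r (some (f, false)) t ≤ 76 / 1000 := by
  have h1 := cR_bound hF f t
  have h2 := hQ_bound hF f t
  have h3 := hP_bound (e := e) (q := q) (r := r) t
  simp only [hh] at h2 h3 ⊢
  constructor <;> linarith

lemma hO_bound (hF : ∀ f, IsFam (e f) (q f) (r f)) (fs : Bool × Bool) (t : XX E) :
    3 / 100 ≤ hh e q r (some fs) t ∧ hh e q r (some fs) t ≤ 76 / 1000 := by
  obtain ⟨f, s⟩ := fs
  cases s with
  | true => have := hQ_bound hF f t; constructor <;> linarith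
  | false => exact hR_bound hF f t

lemma hh_bound (hF : ∀ f, IsFam (e f) (q f) (r f)) (i : II) (t : XX E) :
    0 ≤ hh e q r i t ∧ hh e q r i t ≤ 12 / 5 := by
  cases i with
  | none => have := hP_bound (e := e) (q := q) (r := r) t; constructor <;> linarith
  | some fs => have := hO_bound hF fs t; constructor <;> linarith

omit [InnerProductSpace ℝ E] in
lemma cR_nonneg_parts (x y z : E) : 0 ≤ ‖x - y‖⁻¹ ∧ 0 ≤ ‖x - z‖⁻¹ ∧ 0 ≤ ‖y - z‖⁻¹ :=
  ⟨by positivity, by positivity, by positivity⟩

omit [InnerProductSpace ℝ E] in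
/-- two distinct points closer than `1/50` repel strongly -/
lemma inv_large {x y : E} (hxy : x ≠ y) (h : ‖x - y‖ ≤ 1 / 50) : 50 ≤ ‖x - y‖⁻¹ := by
  have h0 : 0 < ‖x - y‖ := norm_pos_iff.mpr (sub_ne_zero.mpr hxy)
  rw [le_inv_comm₀ (by norm_num) h0]
  norm_num; linarith

lemma norm_ctr_sub (he : ∀ f, ‖e f‖ = 1) (hperp : ⟪e true, e false⟫ = 0) {f g : Bool}
    (hfg : f ≠ g) (s s' : Bool) : ‖ctr e (f, s) - ctr e (g, s')‖ ≤ 1415 / 1000 := by
  have key : ∀ a b : E, ‖a‖ = 1 → ‖b‖ = 1 → ⟪a, b⟫ = 0 → ‖a - b‖ ≤ 1415 / 1000 := by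
    intro a b ha hb hab
    have h := norm_sub_sq_real a b
    rw [ha, hb, hab] at h
    have h0 := norm_nonneg (a - b)
    nlinarith
  have hperp' : ⟪e false, e true⟫ = 0 := by rw [real_inner_comm]; exact hperp
  have hin : ⟪ctr e (f, s), ctr e (g, s')⟫ = 0 := by
    cases f <;> cases g <;> cases s <;> cases s' <;>
      simp_all [ctr, inner_neg_left, inner_neg_right]
  exact key _ _ (norm_ctr he _) (norm_ctr he _) hin

lemma dist_pt_pt (hF : ∀ f, IsFam (e f) (q f) (r f)) (fs gs : Bool × Bool) (s v : XX E) :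
    ‖pt q r (some fs) s - pt q r (some gs) v‖ ≤ ‖ctr e fs - ctr e gs‖ + 1 / 50 := by
  have h1 := pt_near hF fs s
  have h2 := pt_near hF gs v
  calc _ = ‖(ctr e fs - ctr e gs) + ((pt q r (some fs) s - ctr e fs)
          - (pt q r (some gs) v - ctr e gs))‖ := by congr 1; abel
    _ ≤ ‖ctr e fs - ctr e gs‖ + ‖(pt q r (some fs) s - ctr e fs)
          - (pt q r (some gs) v - ctr e gs)‖ := norm_add_le _ _
    _ ≤ ‖ctr e fs - ctr e gs‖ + (‖pt q r (some fs) s - ctr e fs‖
          + ‖pt q r (some gs) v - ctr e gs‖) := by gcongr; exact norm_sub_le _ _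
    _ ≤ _ := by linarith

lemma norm_pt_some (hF : ∀ f, IsFam (e f) (q f) (r f)) (fs : Bool × Bool) (s : XX E) :
    ‖pt q r (some fs) s‖ ≤ 101 / 100 := by
  have h1 := pt_near hF fs s
  have h2 := norm_ctr (fun f => (hF f).unit) fs
  calc _ = ‖ctr e fs + (pt q r (some fs) s - ctr e fs)‖ := by congr 1; abel
    _ ≤ ‖ctr e fs‖ + ‖pt q r (some fs) s - ctr e fs‖ := norm_add_le _ _
    _ ≤ _ := by linarith

lemma norm_pt_some_ge (hF : ∀ f, IsFam (e f) (q f) (r f)) (fs : Bool × Bool) (s : XX E) :
    99 / 100 ≤ ‖pt q r (some fs) s‖ := by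
  have h1 := pt_near hF fs s
  have h2 := norm_ctr (fun f => (hF f).unit) fs
  have : ‖ctr e fs‖ ≤ ‖pt q r (some fs) s‖ + ‖pt q r (some fs) s - ctr e fs‖ := by
    calc _ = ‖pt q r (some fs) s - (pt q r (some fs) s - ctr e fs)‖ := by congr 1; abel
      _ ≤ _ := norm_sub_le _ _
  linarith

/-- centre to outer region: the distance is at most `1.011` -/
lemma dist_none_some (hF : ∀ f, IsFam (e f) (q f) (r f)) (fs : Bool × Bool) (t s : XX E) :
    ‖pt q r none t - pt q r (some fs) s‖ ≤ 1011 / 1000 := by
  have h1 := norm_pt_none t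
  have h2 := norm_pt_some hF fs s
  calc _ ≤ ‖pt q r none t‖ + ‖pt q r (some fs) s‖ := norm_sub_le _ _
    _ ≤ _ := by simp only [pt] at *; linarith

lemma q_inj (hF : ∀ f, IsFam (e f) (q f) (r f)) (f : Bool) {s v : XX E} (h : q f s = q f v) :
    s = v := by
  have := (sol_estimates (hF f).unit ((hF f).reg s) ((hF f).sol s) ((hF f).reg v)
    ((hF f).sol v)).2.2.2
  rw [h, sub_self, norm_zero, mul_zero] at this
  have h2 : s.1 - v.1 = 0 := norm_le_zero_iff.mp this
  exact Subtype.ext (sub_eq_zero.mp h2)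

lemma r_inj (hF : ∀ f, IsFam (e f) (q f) (r f)) (f : Bool) {s v : XX E} (h : r f s = r f v) :
    s = v := by
  have := (sol_estimates (hF f).unit ((hF f).reg s) ((hF f).sol s) ((hF f).reg v)
    ((hF f).sol v)).2.2.1
  rw [h, sub_self, norm_zero, mul_zero] at this
  have h2 : s.1 - v.1 = 0 := norm_le_zero_iff.mp this
  exact Subtype.ext (sub_eq_zero.mp h2)

/-- the case of points in the regions `P`, `Q f`, `R f` -/
lemma ineq_fam (hF : ∀ f, IsFam (e f) (q f) (r f)) (f : Bool) (t s v : XX E)
    (h12 : t.1 ≠ q f s) (h13 : t.1 ≠ r f v) (h23 : q f s ≠ r f v) :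
    hh e q r none t + hh e q r (some (f, true)) s + hh e q r (some (f, false)) v
      ≤ cR t.1 (q f s) (r f v) ∧
    (hh e q r none t + hh e q r (some (f, true)) s + hh e q r (some (f, false)) v
      = cR t.1 (q f s) (r f v) → t = v ∧ s = v) := by
  have h := global_min (hF f).unit ((hF f).reg v) ((hF f).sol v) h12 h13 h23
  have h1 : 0 ≤ ‖t.1 - v.1‖ ^ 2 := by positivity
  have h2 : 0 ≤ ‖q f s - q f v‖ ^ 2 := by positivity
  simp only [hh]
  refine ⟨by linarith, fun heq => ?_⟩
  have h3 : ‖t.1 - v.1‖ ^ 2 = 0 := by linarith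
  have h4 : ‖q f s - q f v‖ ^ 2 = 0 := by linarith
  have h5 : t.1 - v.1 = 0 := by simpa using h3
  have h6 : q f s - q f v = 0 := by simpa using h4
  exact ⟨Subtype.ext (sub_eq_zero.mp h5), q_inj hF f (sub_eq_zero.mp h6)⟩

/-- the case of one point in the central region -/
lemma ineq_none_some_some (hF : ∀ f, IsFam (e f) (q f) (r f)) (hperp : ⟪e true, e false⟫ = 0)
    (t s v : XX E) (fs gs : Bool × Bool)
    (h12 : pt q r none t ≠ pt q r (some fs) s) (h13 : pt q r none t ≠ pt q r (some gs) v)
    (h23 : pt q r (some fs) s ≠ pt q r (some gs) v) :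
    hh e q r none t + hh e q r (some fs) s + hh e q r (some gs) v
      ≤ cR (pt q r none t) (pt q r (some fs) s) (pt q r (some gs) v) ∧
    (hh e q r none t + hh e q r (some fs) s + hh e q r (some gs) v
      = cR (pt q r none t) (pt q r (some fs) s) (pt q r (some gs) v) →
      Tri (none, t) (some fs, s) (some gs, v)) := by
  obtain ⟨f, b⟩ := fs
  obtain ⟨g, c⟩ := gs
  have bP := (hP_bound (e := e) (q := q) (r := r) t).2
  have bO1 := (hO_bound hF (f, b) s).2
  have bO2 := (hO_bound hF (g, c) v).2
  obtain ⟨n1, n2, n3⟩ := cR_nonneg_parts (pt q r none t) (pt q r (some (f, b)) s)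
    (pt q r (some (g, c)) v)
  by_cases hfg : f = g
  · subst hfg
    by_cases hbc : b = c
    · subst hbc
      -- same region
      have h := dist_pt_pt hF (f, b) (f, b) s v
      rw [sub_self, norm_zero, zero_add] at h
      have h' := inv_large h23 h
      have hlt : hh e q r none t + hh e q r (some (f, b)) s + hh e q r (some (f, b)) v
          < cR (pt q r none t) (pt q r (some (f, b)) s) (pt q r (some (f, b)) v) := by
        unfold cR; linarith
      exact ⟨hlt.le, fun heq => absurd heq hlt.ne⟩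
    · cases b with
      | true =>
        have hc : c = false := by cases c <;> simp_all
        subst hc
        obtain ⟨h1, h2⟩ := ineq_fam hF f t s v h12 h13 h23
        refine ⟨h1, fun heq => ?_⟩
        obtain ⟨rfl, rfl⟩ := h2 heq
        exact ⟨_, f, Or.inl ⟨rfl, rfl, rfl⟩⟩
      | false =>
        have hc : c = true := by cases c <;> simp_all
        subst hc
        obtain ⟨h1, h2⟩ := ineq_fam hF f t v s h13 h12 h23.symm
        have e1 : cR (pt q r none t) (pt q r (some (f, false)) s) (pt q r (some (f, true)) v)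
            = cR t.1 (q f v) (r f s) := cR_comm23 _ _ _
        rw [e1]
        refine ⟨by linarith, fun heq => ?_⟩
        obtain ⟨rfl, rfl⟩ := h2 (by linarith)
        exact ⟨_, f, Or.inr (Or.inl ⟨rfl, rfl, rfl⟩)⟩
  · -- different families
    have h := dist_pt_pt hF (f, b) (g, c) s v
    have h' := norm_ctr_sub (fun f => (hF f).unit) hperp hfg b c
    have d1 := dist_none_some hF (f, b) t s
    have d2 := dist_none_some hF (g, c) t v
    have p1 : 0 < ‖pt q r none t - pt q r (some (f, b)) s‖ :=
      norm_pos_iff.mpr (sub_ne_zero.mpr h12)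
    have p2 : 0 < ‖pt q r none t - pt q r (some (g, c)) v‖ :=
      norm_pos_iff.mpr (sub_ne_zero.mpr h13)
    have p3 : 0 < ‖pt q r (some (f, b)) s - pt q r (some (g, c)) v‖ :=
      norm_pos_iff.mpr (sub_ne_zero.mpr h23)
    have i1 := inv_anti₀ p1 d1
    have i2 := inv_anti₀ p2 d2
    have i3 : (1435 / 1000)⁻¹ ≤ ‖pt q r (some (f, b)) s - pt q r (some (g, c)) v‖⁻¹ :=
      inv_anti₀ p3 (by linarith)
    have hlt : hh e q r none t + hh e q r (some (f, b)) s + hh e q r (some (g, c)) v
        < cR (pt q r none t) (pt q r (some (f, b)) s) (pt q r (some (g, c)) v) := by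
      unfold cR
      norm_num at i1 i2 i3
      linarith
    exact ⟨hlt.le, fun heq => absurd heq hlt.ne⟩

/-- the case of three points in the outer regions -/
lemma ineq_some (hF : ∀ f, IsFam (e f) (q f) (r f))
    (t s v : XX E) (ds fs gs : Bool × Bool)
    (h12 : pt q r (some ds) t ≠ pt q r (some fs) s)
    (h13 : pt q r (some ds) t ≠ pt q r (some gs) v)
    (h23 : pt q r (some fs) s ≠ pt q r (some gs) v) :
    hh e q r (some ds) t + hh e q r (some fs) s + hh e q r (some gs) v
      < cR (pt q r (some ds) t) (pt q r (some fs) s) (pt q r (some gs) v) := by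
  have key : ∀ (a b : Bool × Bool) (u w : XX E), pt q r (some a) u ≠ pt q r (some b) w →
      (202 / 100)⁻¹ ≤ ‖pt q r (some a) u - pt q r (some b) w‖⁻¹ := by
    intro a b u w hne
    refine inv_anti₀ (norm_pos_iff.mpr (sub_ne_zero.mpr hne)) ?_
    have h1 := norm_pt_some hF a u
    have h2 := norm_pt_some hF b w
    exact (norm_sub_le _ _).trans (by linarith)
  have k1 := key _ _ _ _ h12
  have k2 := key _ _ _ _ h13
  have k3 := key _ _ _ _ h23
  have b1 := (hO_bound hF ds t).2
  have b2 := (hO_bound hF fs s).2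
  have b3 := (hO_bound hF gs v).2
  unfold cR
  norm_num at k1 k2 k3
  linarith

/-- the case of two points in the central region -/
lemma ineq_none_none (hF : ∀ f, IsFam (e f) (q f) (r f))
    (t s v : XX E) (i : II)
    (h12 : pt q r none t ≠ pt q r none s) :
    hh e q r none t + hh e q r none s + hh e q r i v
      < cR (pt q r none t) (pt q r none s) (pt q r i v) := by
  obtain ⟨n1, n2, n3⟩ := cR_nonneg_parts (pt q r none t) (pt q r none s) (pt q r i v)
  have b1 := (hh_bound hF none t).2
  have b2 := (hh_bound hF none s).2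
  have b3 := (hh_bound hF i v).2
  have h1 := norm_pt_none t
  have h2 := norm_pt_none s
  have h3 : ‖pt q r none t - pt q r none s‖ ≤ 1 / 50 := by
    refine (norm_sub_le _ _).trans ?_
    simp only [pt]; linarith
  have h4 := inv_large h12 h3
  unfold cR
  linarith

/-- The energy inequality. -/
theorem energy_ineq (hF : ∀ f, IsFam (e f) (q f) (r f)) (hperp : ⟪e true, e false⟫ = 0)
    (a b c : II × XX E)
    (h12 : pt q r a.1 a.2 ≠ pt q r b.1 b.2) (h13 : pt q r a.1 a.2 ≠ pt q r c.1 c.2)
    (h23 : pt q r b.1 b.2 ≠ pt q r c.1 c.2) :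
    hh e q r a.1 a.2 + hh e q r b.1 b.2 + hh e q r c.1 c.2
      ≤ cR (pt q r a.1 a.2) (pt q r b.1 b.2) (pt q r c.1 c.2) ∧
    (hh e q r a.1 a.2 + hh e q r b.1 b.2 + hh e q r c.1 c.2
      = cR (pt q r a.1 a.2) (pt q r b.1 b.2) (pt q r c.1 c.2) → Tri a b c) := by
  obtain ⟨i, t⟩ := a
  obtain ⟨j, s⟩ := b
  obtain ⟨k, v⟩ := c
  simp only at h12 h13 h23 ⊢
  have strict : ∀ {x y : ℝ} {P : Prop}, x < y → (x ≤ y ∧ (x = y → P)) :=
    fun h => ⟨h.le, fun heq => absurd heq h.ne⟩
  cases i with
  | none =>
    cases j with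
    | none => exact strict (ineq_none_none hF t s v k h12)
    | some fs =>
      cases k with
      | none =>
        have h := ineq_none_none hF t v s (some fs) h13
        rw [cR_comm23] at h
        exact strict (by linarith)
      | some gs => exact ineq_none_some_some hF hperp t s v fs gs h12 h13 h23
  | some ds =>
    cases j with
    | none =>
      cases k with
      | none =>
        have h := ineq_none_none hF s v t (some ds) h23
        rw [cR_comm23, cR_comm12] at h
        exact strict (by linarith)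
      | some gs =>
        obtain ⟨h1, h2⟩ := ineq_none_some_some hF hperp s t v ds gs h12.symm h23 h13
        rw [cR_comm12] at h1 h2
        exact ⟨by linarith, fun heq => (h2 (by linarith)).swap12⟩
    | some fs =>
      cases k with
      | none =>
        obtain ⟨h1, h2⟩ := ineq_none_some_some hF hperp v t s ds fs h13.symm h23.symm h12
        rw [cR_comm12, cR_comm23] at h1 h2
        exact ⟨by linarith, fun heq => (h2 (by linarith)).swap12.swap23⟩
      | some gs => exact strict (ineq_some hF t s v ds fs gs h12 h13 h23)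

/-- On critical triples the energy equals the sum of the potentials. -/
lemma energy_eq (f : Bool) (t : XX E) :
    hh e q r none t + hh e q r (some (f, true)) t + hh e q r (some (f, false)) t
      = cR t.1 (q f t) (r f t) := by
  simp only [hh]; ring

/-- All indexed points are distinct. -/
theorem pt_injective (hF : ∀ f, IsFam (e f) (q f) (r f)) (hperp : ⟪e true, e false⟫ = 0)
    {a b : II × XX E} (h : pt q r a.1 a.2 = pt q r b.1 b.2) : a = b := by
  obtain ⟨i, t⟩ := a
  obtain ⟨j, s⟩ := b
  simp only at h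
  cases i with
  | none =>
    cases j with
    | none => simp only [pt] at h; rw [Subtype.ext h]
    | some fs =>
      exfalso
      have h1 := norm_pt_none t
      have h2 := norm_pt_some_ge hF fs s
      rw [← h] at h2
      simp only [pt] at h2
      linarith
  | some fs =>
    cases j with
    | none =>
      exfalso
      have h1 := norm_pt_none s
      have h2 := norm_pt_some_ge hF fs t
      rw [h] at h2
      simp only [pt] at h2
      linarith
    | some gs =>
      obtain ⟨f, b⟩ := fs
      obtain ⟨g, c⟩ := gs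
      have hn : ‖ctr e (f, b) - ctr e (g, c)‖ ≤ 1 / 50 := by
        have h1 := pt_near hF (f, b) t
        have h2 := pt_near hF (g, c) s
        rw [← h] at h2
        calc _ = ‖(pt q r (some (f, b)) t - ctr e (g, c)) - (pt q r (some (f, b)) t
              - ctr e (f, b))‖ := by congr 1; abel
          _ ≤ _ := norm_sub_le _ _
          _ ≤ _ := by linarith
      by_cases hfg : f = g
      · subst hfg
        by_cases hbc : b = c
        · subst hbc
          cases b with
          | true => rw [q_inj hF f h]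
          | false => rw [r_inj hF f h]
        · exfalso
          have h2e : ‖(2 : ℝ) • e f‖ = 2 := by rw [norm_smul, (hF f).unit]; norm_num
          have : ‖ctr e (f, b) - ctr e (f, c)‖ = 2 := by
            cases b <;> cases c <;> simp_all only [ctr, not_true_eq_false, reduceCtorEq,
              not_false_eq_true]
            · rw [← h2e, two_smul, ← norm_neg]; congr 1; abel
            · rw [← h2e, two_smul]; congr 1; abel
          linarith
      · exfalso
        have hin : ‖ctr e (f, b) - ctr e (g, c)‖ ^ 2 = 2 := by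
          have hperp' : ⟪e false, e true⟫ = 0 := by rw [real_inner_comm]; exact hperp
          have hin : ⟪ctr e (f, b), ctr e (g, c)⟫ = 0 := by
            cases f <;> cases g <;> cases b <;> cases c <;>
              simp_all [ctr, inner_neg_left, inner_neg_right]
          rw [norm_sub_sq_real, norm_ctr (fun f => (hF f).unit), norm_ctr (fun f => (hF f).unit),
            hin]
          norm_num
        have h0 := norm_nonneg (ctr e (f, b) - ctr e (g, c))
        nlinarith

end

end Vale.Agent.P121
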