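import Vale.Agent.P121.Phi

/-!
# Critical triples: existence and two-sided Lipschitz estimates
-/

namespace Vale.Agent.P121

open scoped RealInnerProductSpace
open Metric

variable {E : Type*} [NormedAddCommGroup E] [InnerProductSpace ℝ E]

/-- inverse of `phi` -/
noncomputable def psi (g : E) : E := ((Real.sqrt ‖g‖) ^ 3)⁻¹ • g

lemma psi_spec {g : E} (hg : g ≠ 0) :
    psi g ≠ 0 ∧ phi (psi g) = g ∧ ‖psi g‖ ^ 2 * ‖g‖ = 1 := by
  have hg' : 0 < ‖g‖ := norm_pos_iff.mpr hg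
  unfold psi
  set s := Real.sqrt ‖g‖ with hs
  have hs0 : 0 < s := Real.sqrt_pos.mpr hg'
  have hss : s ^ 2 = ‖g‖ := Real.sq_sqrt hg'.le
  have hnorm : ‖((s ^ 3)⁻¹ • g)‖ = s⁻¹ := by
    rw [norm_smul, norm_inv, norm_pow, Real.norm_of_nonneg hs0.le, ← hss]
    field_simp
  refine ⟨?_, ?_, ?_⟩
  · exact smul_ne_zero (by positivity) hg
  · rw [phi, hnorm, smul_smul]
    have : (s⁻¹ ^ 3)⁻¹ * (s ^ 3)⁻¹ = 1 := by field_simp
    rw [this, one_smul]
  · rw [hnorm, ← hss]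
    field_simp

/-- The critical point equations. -/
def Sol (e x y z : E) : Prop :=
  (1000000 : ℝ) • x = phi (x - y) + phi (x - z) ∧
  (1000000 : ℝ) • (y - (1 - 1 / 800000 : ℝ) • e) = phi (y - x) + phi (y - z)

/-- The region in which we look for critical triples. -/
structure Region (e x y z : E) : Prop where
  hx : ‖x‖ ≤ 1 / 10000000000
  hy : ‖y - e‖ ≤ 1 / 100000
  hz : ‖z + e‖ ≤ 1 / 100

section est
variable {e x y z x' y' z' : E}

omit [InnerProductSpace ℝ E] in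
lemma Region.xy (he : ‖e‖ = 1) (h : Region e x y z) : |‖x - y‖ - 1| ≤ 1 / 50000 := by
  have h1 : ‖x - y‖ ≤ ‖e‖ + ‖x‖ + ‖y - e‖ := by
    calc ‖x - y‖ = ‖(x - (y - e)) - e‖ := by congr 1; abel
      _ ≤ ‖x - (y - e)‖ + ‖e‖ := norm_sub_le _ _
      _ ≤ (‖x‖ + ‖y - e‖) + ‖e‖ := by gcongr; exact norm_sub_le _ _
      _ = _ := by ring
  have h2 : ‖e‖ ≤ ‖x - y‖ + ‖x‖ + ‖y - e‖ := by
    calc ‖e‖ = ‖(x - (y - e)) - (x - y)‖ := by congr 1; abel
      _ ≤ ‖x - (y - e)‖ + ‖x - y‖ := norm_sub_le _ _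
      _ ≤ (‖x‖ + ‖y - e‖) + ‖x - y‖ := by gcongr; exact norm_sub_le _ _
      _ = _ := by ring
  have := h.hx; have := h.hy
  rw [abs_le]; constructor <;> linarith

omit [InnerProductSpace ℝ E] in
lemma Region.xz (he : ‖e‖ = 1) (h : Region e x y z) : |‖x - z‖ - 1| ≤ 11 / 1000 := by
  have h1 : ‖x - z‖ ≤ ‖e‖ + ‖x‖ + ‖z + e‖ := by
    calc ‖x - z‖ = ‖(x - (z + e)) + e‖ := by congr 1; abel
      _ ≤ ‖x - (z + e)‖ + ‖e‖ := norm_add_le _ _
      _ ≤ (‖x‖ + ‖z + e‖) + ‖e‖ := by gcongr; exact norm_sub_le _ _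
      _ = _ := by ring
  have h2 : ‖e‖ ≤ ‖x - z‖ + ‖x‖ + ‖z + e‖ := by
    calc ‖e‖ = ‖(x - z) - (x - (z + e))‖ := by congr 1; abel
      _ ≤ ‖x - z‖ + ‖x - (z + e)‖ := norm_sub_le _ _
      _ ≤ ‖x - z‖ + (‖x‖ + ‖z + e‖) := by gcongr; exact norm_sub_le _ _
      _ = _ := by ring
  have := h.hx; have := h.hz
  rw [abs_le]; constructor <;> linarith

lemma Region.yz (he : ‖e‖ = 1) (h : Region e x y z) : |‖y - z‖ - 2| ≤ 11 / 1000 := by
  have h2e : ‖(2 : ℝ) • e‖ = 2 := by rw [norm_smul, he]; norm_num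
  have h1 : ‖y - z‖ ≤ ‖(2 : ℝ) • e‖ + ‖y - e‖ + ‖z + e‖ := by
    calc ‖y - z‖ = ‖((y - e) - (z + e)) + (2 : ℝ) • e‖ := by congr 1; rw [two_smul]; abel
      _ ≤ ‖(y - e) - (z + e)‖ + ‖(2 : ℝ) • e‖ := norm_add_le _ _
      _ ≤ (‖y - e‖ + ‖z + e‖) + ‖(2 : ℝ) • e‖ := by gcongr; exact norm_sub_le _ _
      _ = _ := by ring
  have h2 : ‖(2 : ℝ) • e‖ ≤ ‖y - z‖ + ‖y - e‖ + ‖z + e‖ := by
    calc ‖(2 : ℝ) • e‖ = ‖(y - z) - ((y - e) - (z + e))‖ := by congr 1; rw [two_smul]; abel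
      _ ≤ ‖y - z‖ + ‖(y - e) - (z + e)‖ := norm_sub_le _ _
      _ ≤ ‖y - z‖ + (‖y - e‖ + ‖z + e‖) := by gcongr; exact norm_sub_le _ _
      _ = _ := by ring
  have := h.hy; have := h.hz
  rw [abs_le]; constructor <;> linarith

/-- Lipschitz estimate with constant 16. -/
lemma phi_lip16 {w v : E} (hw : 1 / 2 ≤ ‖w‖) (hv : 1 / 2 ≤ ‖v‖) :
    ‖phi w - phi v‖ ≤ 16 * ‖w - v‖ := by
  have := phi_lipschitz (ρ := 1 / 2) (by norm_num) hw hv
  norm_num at this ⊢
  exact this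

lemma phi_colip8 {w v : E} (hw0 : w ≠ 0) (hv0 : v ≠ 0) (hw : ‖w‖ ≤ 2) (hv : ‖v‖ ≤ 2) :
    ‖w - v‖ ≤ 8 * ‖phi w - phi v‖ := by
  have := phi_colipschitz (R := 2) (by norm_num) hw0 hv0 hw hv
  norm_num at this ⊢
  exact this

lemma phi_colip27 {w v : E} (hw0 : w ≠ 0) (hv0 : v ≠ 0) (hw : ‖w‖ ≤ 3) (hv : ‖v‖ ≤ 3) :
    ‖w - v‖ ≤ 27 * ‖phi w - phi v‖ := by
  have := phi_colipschitz (R := 3) (by norm_num) hw0 hv0 hw hv
  norm_num at this ⊢
  exact this

/-- Existence of critical triples for every small `x`. -/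
theorem exists_sol [CompleteSpace E] (he : ‖e‖ = 1) (hx : ‖x‖ ≤ 1 / 10000000000) :
    ∃ y z : E, Region e x y z ∧ Sol e x y z := by
  classical
  set G : E → E := fun y => (1000000 : ℝ) • x - phi (x - y) with hG
  set Z : E → E := fun y => x - psi (G y) with hZ
  set Y : E → E := fun y =>
    (1 - 1 / 800000 : ℝ) • e + (1 / 1000000 : ℝ) • (phi (y - x) + phi (y - Z y)) with hY
  have hKx : ‖(1000000 : ℝ) • x‖ ≤ 1 / 10000 := by
    rw [norm_smul]; norm_num; linarith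
  -- distances
  have hxy : ∀ y ∈ closedBall e (1 / 100000), 1 / 2 ≤ ‖x - y‖ := by
    intro y hy
    rw [mem_closedBall, dist_eq_norm] at hy
    have h2 : ‖e‖ ≤ ‖x - y‖ + ‖x‖ + ‖y - e‖ := by
      calc ‖e‖ = ‖(x - (y - e)) - (x - y)‖ := by congr 1; abel
        _ ≤ ‖x - (y - e)‖ + ‖x - y‖ := norm_sub_le _ _
        _ ≤ (‖x‖ + ‖y - e‖) + ‖x - y‖ := by gcongr; exact norm_sub_le _ _
        _ = _ := by ring
    linarith
  have hGe : ∀ y ∈ closedBall e (1 / 100000), ‖G y - e‖ ≤ 3 / 10000 := by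
    intro y hy
    have h1 := hxy y hy
    rw [mem_closedBall, dist_eq_norm] at hy
    have h2 : ‖phi (x - y) - phi (-e)‖ ≤ 16 * ‖(x - y) - (-e)‖ :=
      phi_lip16 h1 (by rw [norm_neg, he]; norm_num)
    have h3 : ‖(x - y) - (-e)‖ ≤ ‖x‖ + ‖y - e‖ := by
      calc ‖(x - y) - (-e)‖ = ‖x - (y - e)‖ := by congr 1; abel
        _ ≤ _ := norm_sub_le _ _
    have h4 : G y - e = (1000000 : ℝ) • x - (phi (x - y) - phi (-e)) := by
      rw [phi_neg, phi_unit he, hG]; simp only; abel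
    rw [h4]
    calc _ ≤ ‖(1000000 : ℝ) • x‖ + ‖phi (x - y) - phi (-e)‖ := norm_sub_le _ _
      _ ≤ 3 / 10000 := by linarith
  have hG0 : ∀ y ∈ closedBall e (1 / 100000), 1 / 4 ≤ ‖G y‖ := by
    intro y hy
    have h1 := hGe y hy
    have : ‖e‖ ≤ ‖G y‖ + ‖G y - e‖ := by
      calc ‖e‖ = ‖G y - (G y - e)‖ := by congr 1; abel
        _ ≤ _ := norm_sub_le _ _
    linarith
  have hGne : ∀ y ∈ closedBall e (1 / 100000), G y ≠ 0 := by
    intro y hy h
    have := hG0 y hy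
    rw [h, norm_zero] at this
    norm_num at this
  have hpsi2 : ∀ y ∈ closedBall e (1 / 100000), ‖psi (G y)‖ ≤ 2 := by
    intro y hy
    have h1 := (psi_spec (hGne y hy)).2.2
    have h2 := hG0 y hy
    by_contra hcon
    push Not at hcon
    have h4 : 4 < ‖psi (G y)‖ ^ 2 := by nlinarith
    nlinarith
  have hpsie : ∀ y ∈ closedBall e (1 / 100000), ‖psi (G y) - e‖ ≤ 24 / 10000 := by
    intro y hy
    have h1 := psi_spec (hGne y hy)
    have h2 := phi_colip8 h1.1 (show e ≠ 0 by rw [← norm_pos_iff, he]; norm_num) (hpsi2 y hy)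
      (by rw [he]; norm_num)
    rw [h1.2.1, phi_unit he] at h2
    have := hGe y hy
    linarith
  have hZe : ∀ y ∈ closedBall e (1 / 100000), ‖Z y + e‖ ≤ 1 / 100 := by
    intro y hy
    have h1 := hpsie y hy
    calc ‖Z y + e‖ = ‖x - (psi (G y) - e)‖ := by rw [hZ]; congr 1; simp only; abel
      _ ≤ ‖x‖ + ‖psi (G y) - e‖ := norm_sub_le _ _
      _ ≤ 1 / 100 := by linarith
  have hyZ : ∀ y ∈ closedBall e (1 / 100000), 1 / 2 ≤ ‖y - Z y‖ := by
    intro y hy
    have h1 := hZe y hy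
    rw [mem_closedBall, dist_eq_norm] at hy
    have hR : Region e x y (Z y) := ⟨hx, hy, h1⟩
    have := abs_le.mp (hR.yz he)
    linarith
  have hmaps : Set.MapsTo Y (closedBall e (1 / 100000)) (closedBall e (1 / 100000)) := by
    intro y hy
    rw [mem_closedBall, dist_eq_norm]
    have h1 : ‖phi (y - x)‖ ≤ 4 := by
      have h := hxy y hy
      rw [norm_sub_rev] at h
      rw [norm_phi (by rw [← norm_pos_iff]; linarith)]
      rw [inv_le_comm₀ (by nlinarith) (by norm_num)]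
      nlinarith
    have h2 : ‖phi (y - Z y)‖ ≤ 4 := by
      have h := hyZ y hy
      rw [norm_phi (by rw [← norm_pos_iff]; linarith)]
      rw [inv_le_comm₀ (by nlinarith) (by norm_num)]
      nlinarith
    have h3 : Y y - e = (1 / 1000000 : ℝ) • (phi (y - x) + phi (y - Z y))
        - (1 / 800000 : ℝ) • e := by
      rw [hY]; simp only [sub_smul, one_smul]; abel
    rw [h3]
    calc _ ≤ ‖(1 / 1000000 : ℝ) • (phi (y - x) + phi (y - Z y))‖ + ‖(1 / 800000 : ℝ) • e‖ :=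
          norm_sub_le _ _
      _ ≤ 1 / 1000000 * (4 + 4) + 1 / 800000 := by
          rw [norm_smul, norm_smul, he]
          have : ‖phi (y - x) + phi (y - Z y)‖ ≤ 4 + 4 :=
            (norm_add_le _ _).trans (add_le_add h1 h2)
          norm_num at this ⊢
          linarith
      _ ≤ 1 / 100000 := by norm_num
  have hcontr : ∀ y ∈ closedBall e (1 / 100000), ∀ y' ∈ closedBall e (1 / 100000),
      ‖Y y - Y y'‖ ≤ 1 / 2 * ‖y - y'‖ := by
    intro y hy y' hy'
    have hgg : ‖G y - G y'‖ ≤ 16 * ‖y - y'‖ := by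
      have h1 : G y - G y' = phi (x - y') - phi (x - y) := by
        rw [hG]; simp only; abel
      rw [h1]
      have := phi_lip16 (hxy y' hy') (hxy y hy)
      have h2 : ‖(x - y') - (x - y)‖ = ‖y - y'‖ := by congr 1; abel
      rw [h2] at this
      exact this
    have hzz : ‖Z y - Z y'‖ ≤ 128 * ‖y - y'‖ := by
      have h1 : Z y - Z y' = - (psi (G y) - psi (G y')) := by
        rw [hZ]; simp only; abel
      rw [h1, norm_neg]
      have s1 := psi_spec (hGne y hy)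
      have s2 := psi_spec (hGne y' hy')
      have h2 := phi_colip8 s1.1 s2.1 (hpsi2 y hy) (hpsi2 y' hy')
      rw [s1.2.1, s2.2.1] at h2
      linarith
    have hA : ‖phi (y - x) - phi (y' - x)‖ ≤ 16 * ‖y - y'‖ := by
      have := phi_lip16 (w := y - x) (v := y' - x) (by rw [norm_sub_rev]; exact hxy y hy)
        (by rw [norm_sub_rev]; exact hxy y' hy')
      have h2 : ‖(y - x) - (y' - x)‖ = ‖y - y'‖ := by congr 1; abel
      rw [h2] at this
      exact this
    have hB : ‖phi (y - Z y) - phi (y' - Z y')‖ ≤ 16 * (‖y - y'‖ + ‖Z y - Z y'‖) := by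
      have := phi_lip16 (hyZ y hy) (hyZ y' hy')
      refine this.trans ?_
      have h2 : ‖(y - Z y) - (y' - Z y')‖ ≤ ‖y - y'‖ + ‖Z y - Z y'‖ := by
        calc _ = ‖(y - y') - (Z y - Z y')‖ := by congr 1; abel
          _ ≤ _ := norm_sub_le _ _
      linarith
    have hC : Y y - Y y' = (1 / 1000000 : ℝ) •
        ((phi (y - x) - phi (y' - x)) + (phi (y - Z y) - phi (y' - Z y'))) := by
      rw [hY]; simp only
      rw [add_sub_add_left_eq_sub, ← smul_sub]
      congr 1; abel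
    rw [hC, norm_smul]
    have hD := norm_add_le (phi (y - x) - phi (y' - x)) (phi (y - Z y) - phi (y' - Z y'))
    have : ‖(1 / 1000000 : ℝ)‖ = 1 / 1000000 := by norm_num
    rw [this]
    have h0 := norm_nonneg (y - y')
    linarith
  have hcomplete : IsComplete (closedBall e (1 / 100000 : ℝ)) := isClosed_closedBall.isComplete
  have hCW : ContractingWith (1 / 2) (hmaps.restrict Y _ _) := by
    refine ⟨by rw [← NNReal.coe_lt_coe]; norm_num, ?_⟩
    apply LipschitzWith.of_dist_le_mul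
    intro a b
    have := hcontr a.1 a.2 b.1 b.2
    rw [Subtype.dist_eq, Subtype.dist_eq, dist_eq_norm, dist_eq_norm]
    simpa using this
  obtain ⟨y, hy, hfix, -⟩ := ContractingWith.exists_fixedPoint' hcomplete hmaps hCW
    (mem_closedBall_self (by norm_num)) (edist_ne_top _ _)
  refine ⟨y, Z y, ⟨hx, by rwa [mem_closedBall, dist_eq_norm] at hy, hZe y hy⟩, ?_, ?_⟩
  · have h1 : x - Z y = psi (G y) := by rw [hZ]; simp only; abel
    rw [h1, (psi_spec (hGne y hy)).2.1, hG]; simp only; abel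
  · have h1 : Y y = y := hfix
    have h2 : y - (1 - 1 / 800000 : ℝ) • e
        = (1 / 1000000 : ℝ) • (phi (y - x) + phi (y - Z y)) := by
      conv_lhs => rw [← h1]
      rw [hY]; simp only; abel
    rw [h2, smul_smul]
    norm_num

/-- Two-sided Lipschitz estimates between critical triples. -/
theorem sol_estimates (he : ‖e‖ = 1) (hR : Region e x y z) (hS : Sol e x y z)
    (hR' : Region e x' y' z') (hS' : Sol e x' y' z') :
    ‖y - y'‖ ≤ 1000 * ‖x - x'‖ ∧ ‖z - z'‖ ≤ 100000000 * ‖x - x'‖ ∧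
    ‖x - x'‖ ≤ 1 * ‖z - z'‖ ∧ ‖x - x'‖ ≤ 10000 * ‖y - y'‖ := by
  have a1 := abs_le.mp (hR.xy he)
  have a2 := abs_le.mp (hR.xz he)
  have a3 := abs_le.mp (hR.yz he)
  have b1 := abs_le.mp (hR'.xy he)
  have b2 := abs_le.mp (hR'.xz he)
  have b3 := abs_le.mp (hR'.yz he)
  set a := ‖x - x'‖ with ha
  set b := ‖y - y'‖ with hb
  set c := ‖z - z'‖ with hc
  have ha0 : 0 ≤ a := norm_nonneg _
  have hb0 : 0 ≤ b := norm_nonneg _
  have hc0 : 0 ≤ c := norm_nonneg _
  have nxy : ‖(x - y) - (x' - y')‖ ≤ a + b := by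
    calc _ = ‖(x - x') - (y - y')‖ := by congr 1; abel
      _ ≤ _ := norm_sub_le _ _
  have nxz : ‖(x - z) - (x' - z')‖ ≤ a + c := by
    calc _ = ‖(x - x') - (z - z')‖ := by congr 1; abel
      _ ≤ _ := norm_sub_le _ _
  have nyz : ‖(y - z) - (y' - z')‖ ≤ b + c := by
    calc _ = ‖(y - y') - (z - z')‖ := by congr 1; abel
      _ ≤ _ := norm_sub_le _ _
  have nyx : ‖(y - x) - (y' - x')‖ ≤ a + b := by
    calc _ = ‖(x - x') - (y - y')‖ := by rw [← norm_neg]; congr 1; abel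
      _ ≤ _ := norm_sub_le _ _
  have mxz : c ≤ a + ‖(x - z) - (x' - z')‖ := by
    calc c = ‖(x - x') - ((x - z) - (x' - z'))‖ := by rw [hc]; congr 1; abel
      _ ≤ _ := norm_sub_le _ _
  have myz : c ≤ b + ‖(y - z) - (y' - z')‖ := by
    calc c = ‖(y - y') - ((y - z) - (y' - z'))‖ := by rw [hc]; congr 1; abel
      _ ≤ _ := norm_sub_le _ _
  have pxy : ‖phi (x - y) - phi (x' - y')‖ ≤ 16 * (a + b) :=
    (phi_lip16 (by linarith) (by linarith)).trans (by linarith)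
  have pxz : ‖phi (x - z) - phi (x' - z')‖ ≤ 16 * (a + c) :=
    (phi_lip16 (by linarith) (by linarith)).trans (by linarith)
  have pyz : ‖phi (y - z) - phi (y' - z')‖ ≤ 16 * (b + c) :=
    (phi_lip16 (by linarith) (by linarith)).trans (by linarith)
  have pyx : ‖phi (y - x) - phi (y' - x')‖ ≤ 16 * (a + b) :=
    (phi_lip16 (by rw [norm_sub_rev]; linarith) (by rw [norm_sub_rev]; linarith)).trans
      (by linarith)
  have nz : ∀ {w : E}, 1 / 2 ≤ ‖w‖ → w ≠ 0 := by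
    intro w hw
    rw [← norm_pos_iff]; linarith
  have qxz : ‖(x - z) - (x' - z')‖ ≤ 8 * ‖phi (x - z) - phi (x' - z')‖ :=
    phi_colip8 (nz (by linarith)) (nz (by linarith)) (by linarith) (by linarith)
  have qyz : ‖(y - z) - (y' - z')‖ ≤ 27 * ‖phi (y - z) - phi (y' - z')‖ :=
    phi_colip27 (nz (by linarith)) (nz (by linarith)) (by linarith) (by linarith)
  -- equations
  have E1 : (1000000 : ℝ) • (x - x') = (phi (x - y) - phi (x' - y'))
      + (phi (x - z) - phi (x' - z')) := by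
    rw [smul_sub, hS.1, hS'.1]; abel
  have E2 : (1000000 : ℝ) • (y - y') = (phi (y - x) - phi (y' - x'))
      + (phi (y - z) - phi (y' - z')) := by
    have : y - y' = (y - (1 - 1 / 800000 : ℝ) • e) - (y' - (1 - 1 / 800000 : ℝ) • e) := by abel
    rw [this, smul_sub, hS.2, hS'.2]; abel
  have nK : ∀ v : E, ‖(1000000 : ℝ) • v‖ = 1000000 * ‖v‖ := by
    intro v; rw [norm_smul]; norm_num
  have I1 : 1000000 * a ≤ 16 * (a + b) + 16 * (a + c) := by
    rw [ha, ← nK, E1]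
    exact (norm_add_le _ _).trans (add_le_add pxy pxz)
  have I2 : 1000000 * b ≤ 16 * (a + b) + 16 * (b + c) := by
    rw [hb, ← nK, E2]
    exact (norm_add_le _ _).trans (add_le_add pyx pyz)
  have I3 : ‖phi (x - z) - phi (x' - z')‖ ≤ 1000000 * a + 16 * (a + b) := by
    have : phi (x - z) - phi (x' - z')
        = (1000000 : ℝ) • (x - x') - (phi (x - y) - phi (x' - y')) := by rw [E1]; abel
    rw [this]
    refine (norm_sub_le _ _).trans ?_
    rw [nK]
    exact add_le_add le_rfl pxy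
  have I4 : ‖phi (y - z) - phi (y' - z')‖ ≤ 1000000 * b + 16 * (a + b) := by
    have : phi (y - z) - phi (y' - z')
        = (1000000 : ℝ) • (y - y') - (phi (y - x) - phi (y' - x')) := by rw [E2]; abel
    rw [this]
    refine (norm_sub_le _ _).trans ?_
    rw [nK]
    exact add_le_add le_rfl pyx
  refine ⟨?_, ?_, ?_, ?_⟩
  · linarith
  · linarith
  · linarith
  · linarith

end est

end Vale.Agent.P121
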