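import Vale.Agent.P121.Energy
import Vale.Agent.P121.Defs

/-!
# The measure and its properties
-/

namespace Vale.Agent.P121

open scoped RealInnerProductSpace ENNReal NNReal
open MeasureTheory Metric

section basic
variable {d : ℕ}
variable {e : Bool → EuclideanSpace ℝ (Fin d)}
variable {q r : Bool → XX (EuclideanSpace ℝ (Fin d)) → EuclideanSpace ℝ (Fin d)}

lemma lipschitz_pt (hF : ∀ f, IsFam (e f) (q f) (r f)) (i : II) : Continuous (pt q r i) := by
  rcases i with _ | ⟨f, b⟩
  · exact continuous_subtype_val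
  · cases b with
    | true =>
      refine (LipschitzWith.of_dist_le_mul (K := 1000) ?_).continuous
      intro s t
      have := (sol_estimates (hF f).unit ((hF f).reg s) ((hF f).sol s) ((hF f).reg t)
        ((hF f).sol t)).1
      rw [Subtype.dist_eq, dist_eq_norm, dist_eq_norm]
      exact_mod_cast this
    | false =>
      refine (LipschitzWith.of_dist_le_mul (K := 100000000) ?_).continuous
      intro s t
      have := (sol_estimates (hF f).unit ((hF f).reg s) ((hF f).sol s) ((hF f).reg t)
        ((hF f).sol t)).2.1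
      rw [Subtype.dist_eq, dist_eq_norm, dist_eq_norm]
      exact_mod_cast this

lemma antilipschitz_pt (hF : ∀ f, IsFam (e f) (q f) (r f)) (i : II) :
    AntilipschitzWith 10000 (pt q r i) := by
  apply AntilipschitzWith.of_le_mul_dist
  intro s t
  rw [Subtype.dist_eq, dist_eq_norm, dist_eq_norm]
  rcases i with _ | ⟨f, b⟩
  · simp only [pt]
    have h0 := norm_nonneg (s.1 - t.1)
    push_cast
    linarith
  · have h := (sol_estimates (hF f).unit ((hF f).reg s) ((hF f).sol s) ((hF f).reg t)
        ((hF f).sol t)).2.2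
    cases b with
    | true => simp only [pt]; exact_mod_cast h.2
    | false =>
      simp only [pt]
      have h0 := norm_nonneg (r f s - r f t)
      push_cast
      linarith [h.1]

lemma measurableEmbedding_pt (hF : ∀ f, IsFam (e f) (q f) (r f)) (i : II) :
    MeasurableEmbedding (pt q r i) := by
  have : CompactSpace (XX (EuclideanSpace ℝ (Fin d))) :=
    isCompact_iff_compactSpace.mp (isCompact_closedBall _ _)
  exact ((lipschitz_pt hF i).isClosedEmbedding (antilipschitz_pt hF i).injective).measurableEmbedding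

/-- Lebesgue measure on the parameter ball -/
noncomputable abbrev lam (d : ℕ) : Measure (XX (EuclideanSpace ℝ (Fin d))) :=
  Measure.comap Subtype.val volume

lemma lam_apply (A : Set (XX (EuclideanSpace ℝ (Fin d)))) :
    lam d A = volume (Subtype.val '' A) :=
  (MeasurableEmbedding.subtype_coe isClosed_closedBall.measurableSet).comap_apply _ _

instance : IsFiniteMeasure (lam d) := by
  refine ⟨?_⟩
  rw [lam_apply]
  exact (measure_mono (Subtype.coe_image_subset _ _)).trans_lt measure_closedBall_lt_top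

lemma lam_univ_pos : 0 < lam d Set.univ := by
  rw [lam_apply, Set.image_univ, Subtype.range_coe]
  exact measure_closedBall_pos _ _ (by norm_num)

/-- the pushforwards of Lebesgue measure have bounded density -/
lemma map_pt_le (hF : ∀ f, IsFam (e f) (q f) (r f)) (i : II) :
    (lam d).map (pt q r i) ≤ ((10000 : ℝ≥0∞) ^ d) • volume := by
  set n := Module.finrank ℝ (EuclideanSpace ℝ (Fin d)) with hn
  have hnd : n = d := by rw [hn]; simp
  have hvol : (volume : Measure (EuclideanSpace ℝ (Fin d)))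
      = (Measure.addHaarScalarFactor (volume : Measure (EuclideanSpace ℝ (Fin d)))
          (μH[(n : ℝ)])) • μH[(n : ℝ)] :=
    Measure.isAddLeftInvariant_eq_smul _ _
  rw [Measure.le_iff]
  intro s hs
  rw [(measurableEmbedding_pt hF i).map_apply, lam_apply]
  set c : ℝ≥0 := Measure.addHaarScalarFactor (volume : Measure (EuclideanSpace ℝ (Fin d)))
    (μH[(n : ℝ)]) with hc
  have h1 : ∀ A : Set (EuclideanSpace ℝ (Fin d)), volume A = c * μH[(n : ℝ)] A := by
    intro A
    conv_lhs => rw [hvol]
    rfl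
  rw [h1, Measure.smul_apply, h1]
  have h2 : μH[(n : ℝ)] (Subtype.val '' (pt q r i ⁻¹' s)) = μH[(n : ℝ)] (pt q r i ⁻¹' s) :=
    isometry_subtype_coe.hausdorffMeasure_image (Or.inl (by positivity)) _
  have h3 := (antilipschitz_pt hF i).hausdorffMeasure_preimage_le (d := n) (by positivity) s
  rw [h2]
  have h4 : ((10000 : ℝ≥0) : ℝ≥0∞) ^ (n : ℝ) = (10000 : ℝ≥0∞) ^ d := by
    rw [ENNReal.rpow_natCast, hnd]; norm_num
  rw [h4] at h3
  calc (c : ℝ≥0∞) * μH[(n : ℝ)] (pt q r i ⁻¹' s)
      ≤ c * ((10000 : ℝ≥0∞) ^ d * μH[(n : ℝ)] s) := by gcongr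
    _ = (10000 : ℝ≥0∞) ^ d • (c * μH[(n : ℝ)] s) := by rw [smul_eq_mul]; ring

/-- the weights of the five regions -/
noncomputable def ww : II → ℝ≥0∞
  | none => 2
  | some _ => 1

/-- the unnormalised measure -/
noncomputable def nu (q r : Bool → XX (EuclideanSpace ℝ (Fin d)) → EuclideanSpace ℝ (Fin d)) :
    Measure (EuclideanSpace ℝ (Fin d)) :=
  ∑ i : II, ww i • (lam d).map (pt q r i)

/-- the normalising constant -/
noncomputable def c0 (d : ℕ) : ℝ≥0∞ := (6 * lam d Set.univ)⁻¹

/-- the measure -/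
noncomputable def mu (q r : Bool → XX (EuclideanSpace ℝ (Fin d)) → EuclideanSpace ℝ (Fin d)) :
    Measure (EuclideanSpace ℝ (Fin d)) := c0 d • nu q r

lemma c0_ne_zero : c0 d ≠ 0 := by
  unfold c0
  exact ENNReal.inv_ne_zero.mpr (ENNReal.mul_ne_top (by norm_num) (measure_ne_top _ _))

lemma c0_ne_top : c0 d ≠ ⊤ := by
  unfold c0
  exact ENNReal.inv_ne_top.mpr (mul_ne_zero (by norm_num) lam_univ_pos.ne')

lemma c0_mul : c0 d * (6 * lam d Set.univ) = 1 := by
  unfold c0
  exact ENNReal.inv_mul_cancel (mul_ne_zero (by norm_num) lam_univ_pos.ne')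
    (ENNReal.mul_ne_top (by norm_num) (measure_ne_top _ _))

lemma nu_apply (S : Set (EuclideanSpace ℝ (Fin d))) :
    nu q r S = ∑ i : II, ww i * (lam d).map (pt q r i) S := by
  unfold nu
  rw [Measure.finsetSum_apply]
  rfl

lemma sum_II {M : Type*} [AddCommMonoid M] (g : II → M) :
    ∑ i : II, g i = g none + (g (some (true, true)) + g (some (true, false))
      + (g (some (false, true)) + g (some (false, false)))) := by
  rw [Fintype.sum_option, Fintype.sum_prod_type]
  simp

lemma meas_pt (hF : ∀ f, IsFam (e f) (q f) (r f)) (i : II) : Measurable (pt q r i) :=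
  (measurableEmbedding_pt hF i).measurable

lemma mu_univ (hF : ∀ f, IsFam (e f) (q f) (r f)) : mu q r Set.univ = 1 := by
  unfold mu
  rw [Measure.smul_apply, nu_apply, sum_II, smul_eq_mul]
  have h : ∀ i, (lam d).map (pt q r i) Set.univ = lam d Set.univ := by
    intro i
    rw [Measure.map_apply (meas_pt hF i) MeasurableSet.univ, Set.preimage_univ]
  simp only [h, ww]
  refine Eq.trans ?_ (c0_mul (d := d))
  ring

lemma map_le_nu (i : II) : (lam d).map (pt q r i) ≤ nu q r := by
  have h1 : (lam d).map (pt q r i) ≤ ww i • (lam d).map (pt q r i) := by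
    cases i with
    | none =>
      rw [ww, two_smul]
      exact Measure.le_add_left le_rfl
    | some fs => rw [ww, one_smul]
  refine h1.trans ?_
  unfold nu
  exact Finset.single_le_sum (f := fun i => ww i • (lam d).map (pt q r i))
    (fun _ _ => Measure.zero_le _) (Finset.mem_univ i)

lemma map_ac_mu (i : II) : (lam d).map (pt q r i) ≪ mu q r := by
  have h1 : (lam d).map (pt q r i) ≪ nu q r := (map_le_nu i).absolutelyContinuous
  refine h1.trans ?_
  unfold mu
  exact Measure.absolutelyContinuous_smul c0_ne_zero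

/-- a property true `mu`-almost everywhere is true at almost all parametrised points -/
lemma ae_pt (hF : ∀ f, IsFam (e f) (q f) (r f)) {P : EuclideanSpace ℝ (Fin d) → Prop}
    (h : ∀ᵐ x ∂(mu q r), P x) (i : II) : ∀ᵐ t ∂(lam d), P (pt q r i t) :=
  ae_of_ae_map (meas_pt hF i).aemeasurable ((map_ac_mu i).ae_le h)

lemma nu_le (hF : ∀ f, IsFam (e f) (q f) (r f)) :
    nu q r ≤ (6 * (10000 : ℝ≥0∞) ^ d) • volume := by
  unfold nu
  rw [sum_II]
  have h := fun i => map_pt_le hF i
  rw [Measure.le_iff]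
  intro s hs
  simp only [Measure.add_apply, Measure.smul_apply, smul_eq_mul, ww]
  have h' : ∀ i, (lam d).map (pt q r i) s ≤ (10000 : ℝ≥0∞) ^ d * volume s := by
    intro i
    have := Measure.le_iff.mp (h i) s hs
    simpa using this
  calc _ ≤ 2 * ((10000 : ℝ≥0∞) ^ d * volume s) + (1 * ((10000 : ℝ≥0∞) ^ d * volume s)
        + 1 * ((10000 : ℝ≥0∞) ^ d * volume s) + (1 * ((10000 : ℝ≥0∞) ^ d * volume s)
        + 1 * ((10000 : ℝ≥0∞) ^ d * volume s))) := by
        gcongr <;> exact h' _
    _ = _ := by ring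

/-- the measure has bounded density -/
lemma mu_le (hF : ∀ f, IsFam (e f) (q f) (r f)) :
    ∃ C : ℝ≥0, mu q r ≤ (C : ℝ≥0∞) • volume := by
  refine ⟨(c0 d * (6 * (10000 : ℝ≥0∞) ^ d)).toNNReal, ?_⟩
  rw [ENNReal.coe_toNNReal (ENNReal.mul_ne_top c0_ne_top
    (ENNReal.mul_ne_top (by norm_num) (ENNReal.pow_ne_top (by norm_num)))), mul_smul]
  unfold mu
  have := nu_le hF
  gcongr

lemma mu_compl_closedBall (hF : ∀ f, IsFam (e f) (q f) (r f)) :
    mu q r (closedBall 0 2)ᶜ = 0 := by
  unfold mu
  rw [Measure.smul_apply, nu_apply]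
  have h : ∀ i, (lam d).map (pt q r i) (closedBall 0 2)ᶜ = 0 := by
    intro i
    rw [Measure.map_apply (meas_pt hF i) isClosed_closedBall.measurableSet.compl]
    have : pt q r i ⁻¹' (closedBall 0 2)ᶜ = ∅ := by
      ext t
      simp only [Set.mem_preimage, Set.mem_compl_iff, mem_closedBall, dist_zero_right, not_le,
        Set.mem_empty_iff_false, iff_false, not_lt]
      cases i with
      | none => have := norm_pt_none t; simp only [pt]; linarith
      | some fs => have := norm_pt_some hF fs t; linarith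
    rw [this, measure_empty]
  simp [h]

/-- the potential -/
noncomputable def UU (e : Bool → EuclideanSpace ℝ (Fin d))
    (q r : Bool → XX (EuclideanSpace ℝ (Fin d)) → EuclideanSpace ℝ (Fin d)) :
    EuclideanSpace ℝ (Fin d) → ℝ≥0∞ := fun x =>
  ∑ i : II, Function.extend (pt q r i) (fun t => ENNReal.ofReal (hh e q r i t)) 0 x

lemma measurable_hh (hF : ∀ f, IsFam (e f) (q f) (r f)) (i : II) :
    Measurable (hh e q r i) := by
  have hq : ∀ f, Measurable (q f) := fun f => meas_pt hF (some (f, true))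
  have hr : ∀ f, Measurable (r f) := fun f => meas_pt hF (some (f, false))
  have hv : Measurable (fun t : XX (EuclideanSpace ℝ (Fin d)) => t.1) := measurable_subtype_coe
  have hP : Measurable (fun t : XX (EuclideanSpace ℝ (Fin d)) =>
      (12 / 5 : ℝ) - 500000 * ‖t.1‖ ^ 2) := by fun_prop
  rcases i with _ | ⟨f, b⟩
  · exact hP
  · have h1 := hq f
    have h2 := hr f
    have hQ : Measurable (fun t : XX (EuclideanSpace ℝ (Fin d)) =>
        (1 / 20 : ℝ) - 500000 * ‖q f t - mc (e f)‖ ^ 2) := by fun_prop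
    cases b with
    | true => exact hQ
    | false =>
      have hc : Measurable (fun t : XX (EuclideanSpace ℝ (Fin d)) => cR t.1 (q f t) (r f t)) := by
        unfold cR
        fun_prop
      exact (hc.sub hP).sub hQ

lemma measurable_UU (hF : ∀ f, IsFam (e f) (q f) (r f)) : Measurable (UU e q r) := by
  unfold UU
  refine Finset.measurable_sum _ (fun i _ => ?_)
  exact (measurableEmbedding_pt hF i).measurable_extend
    (ENNReal.measurable_ofReal.comp (measurable_hh hF i)) measurable_const

lemma UU_pt (hF : ∀ f, IsFam (e f) (q f) (r f)) (hperp : ⟪e true, e false⟫ = 0) (i : II)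
    (t : XX (EuclideanSpace ℝ (Fin d))) :
    UU e q r (pt q r i t) = ENNReal.ofReal (hh e q r i t) := by
  unfold UU
  rw [Finset.sum_eq_single i]
  · exact (antilipschitz_pt hF i).injective.extend_apply _ _ _
  · intro j _ hj
    rw [Function.extend_apply']
    · rfl
    · rintro ⟨s, hs⟩
      have := pt_injective hF hperp (a := (j, s)) (b := (i, t)) hs
      exact hj (congrArg Prod.fst this)
  · intro h; exact absurd (Finset.mem_univ i) h

lemma coulomb_eq {x y z : EuclideanSpace ℝ (Fin d)} (hxy : x ≠ y) (hxz : x ≠ z) (hyz : y ≠ z) :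
    coulomb x y z = ENNReal.ofReal (cR x y z) := by
  have h1 : 0 < ‖x - y‖ := norm_pos_iff.mpr (sub_ne_zero.mpr hxy)
  have h2 : 0 < ‖x - z‖ := norm_pos_iff.mpr (sub_ne_zero.mpr hxz)
  have h3 : 0 < ‖y - z‖ := norm_pos_iff.mpr (sub_ne_zero.mpr hyz)
  unfold coulomb cR
  rw [ENNReal.ofReal_add (by positivity) (by positivity),
    ENNReal.ofReal_add (by positivity) (by positivity),
    ENNReal.ofReal_inv_of_pos h1, ENNReal.ofReal_inv_of_pos h2, ENNReal.ofReal_inv_of_pos h3]

lemma coulomb_top {x y z : EuclideanSpace ℝ (Fin d)} (h : x = y ∨ x = z ∨ y = z) :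
    coulomb x y z = ⊤ := by
  unfold coulomb
  rcases h with h | h | h <;> simp [h]

theorem energy_ennreal (hF : ∀ f, IsFam (e f) (q f) (r f)) (hperp : ⟪e true, e false⟫ = 0)
    (a b c : II × XX (EuclideanSpace ℝ (Fin d))) :
    UU e q r (pt q r a.1 a.2) + UU e q r (pt q r b.1 b.2) + UU e q r (pt q r c.1 c.2)
      ≤ coulomb (pt q r a.1 a.2) (pt q r b.1 b.2) (pt q r c.1 c.2) ∧
    (UU e q r (pt q r a.1 a.2) + UU e q r (pt q r b.1 b.2) + UU e q r (pt q r c.1 c.2)
      = coulomb (pt q r a.1 a.2) (pt q r b.1 b.2) (pt q r c.1 c.2) → Tri a b c) := by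
  have na := (hh_bound hF a.1 a.2).1
  have nb := (hh_bound hF b.1 b.2).1
  have nc := (hh_bound hF c.1 c.2).1
  rw [UU_pt hF hperp, UU_pt hF hperp, UU_pt hF hperp,
    ← ENNReal.ofReal_add na nb, ← ENNReal.ofReal_add (add_nonneg na nb) nc]
  by_cases hdist : pt q r a.1 a.2 = pt q r b.1 b.2 ∨ pt q r a.1 a.2 = pt q r c.1 c.2 ∨
      pt q r b.1 b.2 = pt q r c.1 c.2
  · rw [coulomb_top hdist]
    exact ⟨le_top, fun h => absurd h ENNReal.ofReal_ne_top⟩
  · push Not at hdist
    obtain ⟨h12, h13, h23⟩ := hdist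
    rw [coulomb_eq h12 h13 h23]
    obtain ⟨h1, h2⟩ := energy_ineq hF hperp a b c h12 h13 h23
    refine ⟨ENNReal.ofReal_le_ofReal h1, fun h => h2 ?_⟩
    refine le_antisymm h1 ?_
    have h3 := h.ge
    rwa [ENNReal.ofReal_le_ofReal_iff (by linarith)] at h3

lemma coulomb_crit (hF : ∀ f, IsFam (e f) (q f) (r f)) (hperp : ⟪e true, e false⟫ = 0)
    (f : Bool) (t : XX (EuclideanSpace ℝ (Fin d))) :
    coulomb (pt q r none t) (pt q r (some (f, true)) t) (pt q r (some (f, false)) t)
      = UU e q r (pt q r none t) + UU e q r (pt q r (some (f, true)) t)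
        + UU e q r (pt q r (some (f, false)) t) := by
  have inj : ∀ {i j : II}, i ≠ j → pt q r i t ≠ pt q r j t := by
    intro i j hij h
    exact hij (congrArg Prod.fst (pt_injective hF hperp (a := (i, t)) (b := (j, t)) h))
  have n1 := (hh_bound hF none t).1
  have n2 := (hh_bound hF (some (f, true)) t).1
  have n3 := (hh_bound hF (some (f, false)) t).1
  rw [coulomb_eq (inj (by simp)) (inj (by simp)) (inj (by simp)), UU_pt hF hperp,
    UU_pt hF hperp, UU_pt hF hperp, ← ENNReal.ofReal_add n1 n2,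
    ← ENNReal.ofReal_add (add_nonneg n1 n2) n3, energy_eq]
  rfl

lemma coulomb_comm12 (x y z : EuclideanSpace ℝ (Fin d)) : coulomb x y z = coulomb y x z := by
  unfold coulomb; rw [norm_sub_rev x y]; ring

lemma coulomb_comm23 (x y z : EuclideanSpace ℝ (Fin d)) : coulomb x y z = coulomb x z y := by
  unfold coulomb; rw [norm_sub_rev y z]; ring

lemma measurable_coulomb :
    Measurable (fun p : EuclideanSpace ℝ (Fin d) × EuclideanSpace ℝ (Fin d) ×
      EuclideanSpace ℝ (Fin d) => coulomb p.1 p.2.1 p.2.2) := by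
  unfold coulomb
  fun_prop

end basic

end Vale.Agent.P121
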