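import Mathlib

/-!
# Estimates for the Coulomb force field `w / |w|^3`
-/

namespace Vale.Agent.P121

open scoped RealInnerProductSpace

variable {E : Type*} [NormedAddCommGroup E] [InnerProductSpace ℝ E]

/-- the Coulomb force field `w / |w|^3` -/
noncomputable def phi (w : E) : E := (‖w‖ ^ 3)⁻¹ • w

lemma phi_neg (w : E) : phi (-w) = - phi w := by
  simp [phi]

lemma phi_sub_comm (v w : E) : phi (v - w) = - phi (w - v) := by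
  rw [← phi_neg, neg_sub]

lemma norm_phi {w : E} (hw : w ≠ 0) : ‖phi w‖ = (‖w‖ ^ 2)⁻¹ := by
  have h : ‖w‖ ≠ 0 := norm_ne_zero_iff.mpr hw
  rw [phi, norm_smul, norm_inv, norm_pow, norm_norm]
  field_simp

lemma phi_unit {e : E} (he : ‖e‖ = 1) : phi e = e := by
  simp [phi, he]

lemma norm_phi_sub_sq {w v : E} (hw : w ≠ 0) (hv : v ≠ 0) :
    ‖phi w - phi v‖ ^ 2 = (‖w‖⁻¹ ^ 2 - ‖v‖⁻¹ ^ 2) ^ 2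
      + 2 * (‖w‖ * ‖v‖ - ⟪w, v⟫) * (‖w‖⁻¹ * ‖v‖⁻¹) ^ 3 := by
  have hw' : ‖w‖ ≠ 0 := norm_ne_zero_iff.mpr hw
  have hv' : ‖v‖ ≠ 0 := norm_ne_zero_iff.mpr hv
  rw [norm_sub_sq_real, norm_phi hw, norm_phi hv, phi, phi, inner_smul_left, inner_smul_right]
  simp only [map_inv₀, map_pow, RCLike.conj_to_real]
  field_simp
  ring

lemma norm_sub_sq' (w v : E) :
    ‖w - v‖ ^ 2 = (‖w‖ - ‖v‖) ^ 2 + 2 * (‖w‖ * ‖v‖ - ⟪w, v⟫) := by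
  rw [norm_sub_sq_real]; ring

/-- `phi` is Lipschitz away from the origin. -/
lemma phi_lipschitz {w v : E} {ρ : ℝ} (hρ : 0 < ρ) (hw : ρ ≤ ‖w‖) (hv : ρ ≤ ‖v‖) :
    ‖phi w - phi v‖ ≤ 2 * ρ⁻¹ ^ 3 * ‖w - v‖ := by
  have hw0 : 0 < ‖w‖ := lt_of_lt_of_le hρ hw
  have hv0 : 0 < ‖v‖ := lt_of_lt_of_le hρ hv
  have hw' : w ≠ 0 := norm_pos_iff.mp hw0
  have hv' : v ≠ 0 := norm_pos_iff.mp hv0
  have hρ' : 0 < ρ⁻¹ := inv_pos.mpr hρ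
  apply le_of_sq_le_sq _ (by positivity)
  rw [norm_phi_sub_sq hw' hv', mul_pow (2 * ρ⁻¹ ^ 3), norm_sub_sq']
  have hn : 0 ≤ ‖w‖ * ‖v‖ - ⟪w, v⟫ := sub_nonneg.mpr (real_inner_le_norm w v)
  set n := ‖w‖ * ‖v‖ - ⟪w, v⟫ with hn_def
  have hA : ‖w‖⁻¹ ≤ ρ⁻¹ := inv_anti₀ hρ hw
  have hB : ‖v‖⁻¹ ≤ ρ⁻¹ := inv_anti₀ hρ hv
  have hA0 : 0 < ‖w‖⁻¹ := inv_pos.mpr hw0
  have hB0 : 0 < ‖v‖⁻¹ := inv_pos.mpr hv0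
  have key : (‖w‖⁻¹ ^ 2 - ‖v‖⁻¹ ^ 2) ^ 2
      = (‖w‖ - ‖v‖) ^ 2 * ((‖w‖⁻¹ * ‖v‖⁻¹) * (‖w‖⁻¹ + ‖v‖⁻¹)) ^ 2 := by
    field_simp
    ring
  rw [key]
  set A := ‖w‖⁻¹ with hA_def
  set B := ‖v‖⁻¹ with hB_def
  set k := ρ⁻¹ with hk_def
  have h1 : (A * B) * (A + B) ≤ 2 * k ^ 3 := by
    have : A * B ≤ k * k := mul_le_mul hA hB hB0.le hρ'.le
    have h2 : A + B ≤ k + k := add_le_add hA hB
    calc (A * B) * (A + B) ≤ (k * k) * (k + k) := mul_le_mul this h2 (by positivity) (by positivity)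
      _ = 2 * k ^ 3 := by ring
  have h2 : (A * B) ^ 3 ≤ (k * k) ^ 3 := by
    have : A * B ≤ k * k := mul_le_mul hA hB hB0.le hρ'.le
    exact pow_le_pow_left₀ (by positivity) this 3
  have h3 : ((A * B) * (A + B)) ^ 2 ≤ (2 * k ^ 3) ^ 2 :=
    pow_le_pow_left₀ (by positivity) h1 2
  calc (‖w‖ - ‖v‖) ^ 2 * ((A * B) * (A + B)) ^ 2 + 2 * n * (A * B) ^ 3
      ≤ (‖w‖ - ‖v‖) ^ 2 * (2 * k ^ 3) ^ 2 + 2 * n * (k * k) ^ 3 := by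
        gcongr
    _ ≤ (2 * k ^ 3) ^ 2 * ((‖w‖ - ‖v‖) ^ 2 + 2 * n) := by
        have : 0 ≤ n * (k ^ 6) := by positivity
        nlinarith [this]

/-- `phi` is co-Lipschitz on bounded sets. -/
lemma phi_colipschitz {w v : E} {R : ℝ} (hR : 0 < R) (hw0 : w ≠ 0) (hv0 : v ≠ 0)
    (hw : ‖w‖ ≤ R) (hv : ‖v‖ ≤ R) :
    ‖w - v‖ ≤ R ^ 3 * ‖phi w - phi v‖ := by
  have hw' : 0 < ‖w‖ := norm_pos_iff.mpr hw0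
  have hv' : 0 < ‖v‖ := norm_pos_iff.mpr hv0
  apply le_of_sq_le_sq _ (by positivity)
  rw [mul_pow, norm_phi_sub_sq hw0 hv0, norm_sub_sq']
  have hn : 0 ≤ ‖w‖ * ‖v‖ - ⟪w, v⟫ := sub_nonneg.mpr (real_inner_le_norm w v)
  set n := ‖w‖ * ‖v‖ - ⟪w, v⟫ with hn_def
  have hA : R⁻¹ ≤ ‖w‖⁻¹ := inv_anti₀ hw' hw
  have hB : R⁻¹ ≤ ‖v‖⁻¹ := inv_anti₀ hv' hv
  have hk0 : 0 < R⁻¹ := inv_pos.mpr hR
  have hA0 : 0 < ‖w‖⁻¹ := inv_pos.mpr hw'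
  have hB0 : 0 < ‖v‖⁻¹ := inv_pos.mpr hv'
  have key : (‖w‖⁻¹ ^ 2 - ‖v‖⁻¹ ^ 2) ^ 2
      = (‖w‖ - ‖v‖) ^ 2 * ((‖w‖⁻¹ * ‖v‖⁻¹) * (‖w‖⁻¹ + ‖v‖⁻¹)) ^ 2 := by
    field_simp
    ring
  rw [key]
  set A := ‖w‖⁻¹ with hA_def
  set B := ‖v‖⁻¹ with hB_def
  have hRk : R * R⁻¹ = 1 := mul_inv_cancel₀ hR.ne'
  set k := R⁻¹ with hk_def
  have h0 : k * k ≤ A * B := mul_le_mul hA hB hk0.le hA0.le
  have h1 : k ^ 3 ≤ (A * B) * (A + B) := by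
    have h2 : k ≤ A + B := by linarith
    calc k ^ 3 = (k * k) * k := by ring
      _ ≤ (A * B) * (A + B) := mul_le_mul h0 h2 hk0.le (by positivity)
  have h2 : (k * k) ^ 3 ≤ (A * B) ^ 3 := pow_le_pow_left₀ (by positivity) h0 3
  have h3 : (k ^ 3) ^ 2 ≤ ((A * B) * (A + B)) ^ 2 := pow_le_pow_left₀ (by positivity) h1 2
  have h4 : (R ^ 3) ^ 2 * (k ^ 3) ^ 2 = 1 := by
    have : (R ^ 3) ^ 2 * (k ^ 3) ^ 2 = (R * k) ^ 6 := by ring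
    rw [this, hRk, one_pow]
  calc (‖w‖ - ‖v‖) ^ 2 + 2 * n
      = (R ^ 3) ^ 2 * ((‖w‖ - ‖v‖) ^ 2 * (k ^ 3) ^ 2 + 2 * n * (k * k) ^ 3) := by
        have : (R ^ 3) ^ 2 * ((‖w‖ - ‖v‖) ^ 2 * (k ^ 3) ^ 2 + 2 * n * (k * k) ^ 3)
          = ((‖w‖ - ‖v‖) ^ 2 + 2 * n) * ((R ^ 3) ^ 2 * (k ^ 3) ^ 2) := by ring
        rw [this, h4, mul_one]
    _ ≤ (R ^ 3) ^ 2 * ((‖w‖ - ‖v‖) ^ 2 * ((A * B) * (A + B)) ^ 2 + 2 * n * (A * B) ^ 3) := by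
        gcongr

/-- `phi` is surjective onto nonzero vectors, with explicit norm of the preimage. -/
lemma exists_phi_eq {g : E} (hg : g ≠ 0) :
    ∃ w : E, w ≠ 0 ∧ phi w = g ∧ ‖w‖ ^ 2 * ‖g‖ = 1 := by
  have hg' : 0 < ‖g‖ := norm_pos_iff.mpr hg
  set s := Real.sqrt ‖g‖ with hs
  have hs0 : 0 < s := Real.sqrt_pos.mpr hg'
  have hss : s ^ 2 = ‖g‖ := Real.sq_sqrt hg'.le
  have hnorm : ‖((s ^ 3)⁻¹ • g)‖ = s⁻¹ := by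
    rw [norm_smul, norm_inv, norm_pow, Real.norm_of_nonneg hs0.le, ← hss]
    field_simp
  refine ⟨(s ^ 3)⁻¹ • g, ?_, ?_, ?_⟩
  · exact smul_ne_zero (by positivity) hg
  · rw [phi, hnorm, smul_smul]
    have : (s⁻¹ ^ 3)⁻¹ * (s ^ 3)⁻¹ = 1 := by field_simp
    rw [this, one_smul]
  · rw [hnorm, ← hss]
    field_simp

/-- The global lower bound expressing that `1/|w| + (κ/2)|w|^2` lies above its tangent plane at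
any point `v` with `κ ≥ 1/|v|^3`. -/
lemma inv_norm_ge {w v : E} {κ : ℝ} (hw : w ≠ 0) (hv : v ≠ 0) (hκ : (‖v‖ ^ 3)⁻¹ ≤ κ) :
    ‖v‖⁻¹ - ⟪phi v, w - v⟫ - κ / 2 * ‖w - v‖ ^ 2 ≤ ‖w‖⁻¹ := by
  have ha : 0 < ‖w‖ := norm_pos_iff.mpr hw
  have hb : 0 < ‖v‖ := norm_pos_iff.mpr hv
  have hm : ⟪v, w⟫ ≤ ‖v‖ * ‖w‖ := real_inner_le_norm v w
  have h1 : ⟪phi v, w - v⟫ = (‖v‖ ^ 3)⁻¹ * (⟪v, w⟫ - ‖v‖ ^ 2) := by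
    rw [phi, inner_smul_left, inner_sub_right, real_inner_self_eq_norm_sq]
    simp
  have h2 : ‖w - v‖ ^ 2 = ‖w‖ ^ 2 - 2 * ⟪v, w⟫ + ‖v‖ ^ 2 := by
    rw [norm_sub_sq_real, real_inner_comm]
  rw [h1, h2]
  set a := ‖w‖
  set b := ‖v‖
  set m := ⟪v, w⟫
  -- reduce to m = a*b
  have h3 : b⁻¹ - (b ^ 3)⁻¹ * (m - b ^ 2) - κ / 2 * (a ^ 2 - 2 * m + b ^ 2)
      ≤ b⁻¹ - (b ^ 3)⁻¹ * (b * a - b ^ 2) - κ / 2 * (a ^ 2 - 2 * (b * a) + b ^ 2) := by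
    nlinarith [mul_le_mul_of_nonneg_left hm (sub_nonneg.mpr hκ)]
  refine h3.trans ?_
  have h4 : b⁻¹ - (b ^ 3)⁻¹ * (b * a - b ^ 2) - κ / 2 * (a ^ 2 - 2 * (b * a) + b ^ 2)
      = (2 * b⁻¹ - a * b⁻¹ ^ 2) - κ / 2 * (a - b) ^ 2 := by
    field_simp
    ring
  have h5 : 0 ≤ κ := le_trans (by positivity) hκ
  have h6 : 2 * b⁻¹ - a * b⁻¹ ^ 2 ≤ a⁻¹ := by
    have : a⁻¹ - (2 * b⁻¹ - a * b⁻¹ ^ 2) = (a - b) ^ 2 * (a⁻¹ * b⁻¹ ^ 2) := by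
      field_simp
      ring
    have h7 : 0 ≤ (a - b) ^ 2 * (a⁻¹ * b⁻¹ ^ 2) := by positivity
    linarith
  rw [h4]
  have h8 : 0 ≤ κ / 2 * (a - b) ^ 2 := by positivity
  linarith

end Vale.Agent.P121
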