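import Vale.Agent.P121.Meas

/-!
# The optimal plan and the absence of optimal Monge plans
-/

namespace Vale.Agent.P121

open scoped RealInnerProductSpace ENNReal NNReal
open MeasureTheory Metric

section plan
variable {d : ℕ}
variable {e : Bool → EuclideanSpace ℝ (Fin d)}
variable {q r : Bool → XX (EuclideanSpace ℝ (Fin d)) → EuclideanSpace ℝ (Fin d)}

/-- a coupling concentrated on critical triples -/
noncomputable def plan (q r : Bool → XX (EuclideanSpace ℝ (Fin d)) → EuclideanSpace ℝ (Fin d)) :
    Measure (EuclideanSpace ℝ (Fin d) × EuclideanSpace ℝ (Fin d) × EuclideanSpace ℝ (Fin d)) :=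
  c0 d • ∑ f : Bool,
    ((lam d).map (fun t => (pt q r none t, pt q r (some (f, true)) t, pt q r (some (f, false)) t))
    + (lam d).map (fun t => (pt q r (some (f, true)) t, pt q r (some (f, false)) t, pt q r none t))
    + (lam d).map (fun t => (pt q r (some (f, false)) t, pt q r none t, pt q r (some (f, true)) t)))

lemma mu_eq : mu q r = c0 d • ((2 : ℝ≥0∞) • (lam d).map (pt q r none)
    + ((lam d).map (pt q r (some (true, true))) + (lam d).map (pt q r (some (true, false)))
    + ((lam d).map (pt q r (some (false, true))) + (lam d).map (pt q r (some (false, false)))))) := by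
  unfold mu nu
  rw [sum_II]
  simp only [ww, one_smul]

lemma plan_fst (hF : ∀ f, IsFam (e f) (q f) (r f)) :
    (plan q r).map (fun p => p.1) = mu q r := by
  have m := fun i => meas_pt hF i
  have m1 := m none
  have m2 := fun f => m (some (f, true))
  have m3 := fun f => m (some (f, false))
  have hf : Measurable (fun p : EuclideanSpace ℝ (Fin d) × EuclideanSpace ℝ (Fin d) ×
    EuclideanSpace ℝ (Fin d) => p.1) := measurable_fst
  rw [mu_eq, plan, Measure.map_smul, Fintype.sum_bool]
  congr 1
  simp only [Measure.map_add _ _ hf]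
  rw [Measure.map_map hf (by fun_prop), Measure.map_map hf (by fun_prop),
    Measure.map_map hf (by fun_prop), Measure.map_map hf (by fun_prop),
    Measure.map_map hf (by fun_prop), Measure.map_map hf (by fun_prop)]
  simp only [Function.comp_def]
  rw [two_smul]
  abel

lemma plan_snd (hF : ∀ f, IsFam (e f) (q f) (r f)) :
    (plan q r).map (fun p => p.2.1) = mu q r := by
  have m := fun i => meas_pt hF i
  have m1 := m none
  have m2 := fun f => m (some (f, true))
  have m3 := fun f => m (some (f, false))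
  have hf : Measurable (fun p : EuclideanSpace ℝ (Fin d) × EuclideanSpace ℝ (Fin d) ×
    EuclideanSpace ℝ (Fin d) => p.2.1) := measurable_fst.comp measurable_snd
  rw [mu_eq, plan, Measure.map_smul, Fintype.sum_bool]
  congr 1
  simp only [Measure.map_add _ _ hf]
  rw [Measure.map_map hf (by fun_prop), Measure.map_map hf (by fun_prop),
    Measure.map_map hf (by fun_prop), Measure.map_map hf (by fun_prop),
    Measure.map_map hf (by fun_prop), Measure.map_map hf (by fun_prop)]
  simp only [Function.comp_def]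
  rw [two_smul]
  abel

lemma plan_trd (hF : ∀ f, IsFam (e f) (q f) (r f)) :
    (plan q r).map (fun p => p.2.2) = mu q r := by
  have m := fun i => meas_pt hF i
  have m1 := m none
  have m2 := fun f => m (some (f, true))
  have m3 := fun f => m (some (f, false))
  have hf : Measurable (fun p : EuclideanSpace ℝ (Fin d) × EuclideanSpace ℝ (Fin d) ×
    EuclideanSpace ℝ (Fin d) => p.2.2) := measurable_snd.comp measurable_snd
  rw [mu_eq, plan, Measure.map_smul, Fintype.sum_bool]
  congr 1
  simp only [Measure.map_add _ _ hf]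
  rw [Measure.map_map hf (by fun_prop), Measure.map_map hf (by fun_prop),
    Measure.map_map hf (by fun_prop), Measure.map_map hf (by fun_prop),
    Measure.map_map hf (by fun_prop), Measure.map_map hf (by fun_prop)]
  simp only [Function.comp_def]
  rw [two_smul]
  abel

lemma isProbability_mu (hF : ∀ f, IsFam (e f) (q f) (r f)) : IsProbabilityMeasure (mu q r) :=
  ⟨mu_univ hF⟩

lemma isProbability_plan (hF : ∀ f, IsFam (e f) (q f) (r f)) :
    IsProbabilityMeasure (plan q r) := by
  refine ⟨?_⟩
  have h := congrArg (fun m => m Set.univ) (plan_fst hF)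
  simp only [Measure.map_apply measurable_fst MeasurableSet.univ, Set.preimage_univ] at h
  rw [h, mu_univ hF]

lemma plan_mem (hF : ∀ f, IsFam (e f) (q f) (r f)) : plan q r ∈ couplings (mu q r) :=
  ⟨isProbability_plan hF, plan_fst hF, plan_snd hF, plan_trd hF⟩

lemma lintegral_plan (hF : ∀ f, IsFam (e f) (q f) (r f)) (hperp : ⟪e true, e false⟫ = 0) :
    ∫⁻ p, coulomb p.1 p.2.1 p.2.2 ∂(plan q r)
      = ∫⁻ p, (UU e q r p.1 + UU e q r p.2.1 + UU e q r p.2.2) ∂(plan q r) := by
  have m := fun i => meas_pt hF i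
  have m1 := m none
  have m2 := fun f => m (some (f, true))
  have m3 := fun f => m (some (f, false))
  have mU := measurable_UU (e := e) hF
  have mc := measurable_coulomb (d := d)
  have mS : Measurable (fun p : EuclideanSpace ℝ (Fin d) × EuclideanSpace ℝ (Fin d) ×
    EuclideanSpace ℝ (Fin d) => UU e q r p.1 + UU e q r p.2.1 + UU e q r p.2.2) := by fun_prop
  rw [plan, lintegral_smul_measure, lintegral_smul_measure, Fintype.sum_bool]
  congr 1
  simp only [lintegral_add_measure]
  rw [lintegral_map mc (by fun_prop), lintegral_map mc (by fun_prop),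
    lintegral_map mc (by fun_prop), lintegral_map mc (by fun_prop),
    lintegral_map mc (by fun_prop), lintegral_map mc (by fun_prop),
    lintegral_map mS (by fun_prop), lintegral_map mS (by fun_prop),
    lintegral_map mS (by fun_prop), lintegral_map mS (by fun_prop),
    lintegral_map mS (by fun_prop), lintegral_map mS (by fun_prop)]
  have h1 : ∀ f t, coulomb (pt q r none t) (pt q r (some (f, true)) t)
      (pt q r (some (f, false)) t) = UU e q r (pt q r none t)
        + UU e q r (pt q r (some (f, true)) t) + UU e q r (pt q r (some (f, false)) t) :=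
    fun f t => coulomb_crit hF hperp f t
  have h2 : ∀ f t, coulomb (pt q r (some (f, true)) t)
      (pt q r (some (f, false)) t) (pt q r none t) = UU e q r (pt q r (some (f, true)) t)
        + UU e q r (pt q r (some (f, false)) t) + UU e q r (pt q r none t) := by
    intro f t
    rw [coulomb_comm23, coulomb_comm12, h1]; ring
  have h3 : ∀ f t, coulomb (pt q r (some (f, false)) t) (pt q r none t)
      (pt q r (some (f, true)) t) = UU e q r (pt q r (some (f, false)) t)
        + UU e q r (pt q r none t) + UU e q r (pt q r (some (f, true)) t) := by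
    intro f t
    rw [coulomb_comm12, coulomb_comm23, h1]; ring
  simp only [h1, h2, h3]

lemma lintegral_coupling {μ : Measure (EuclideanSpace ℝ (Fin d))}
    {π : Measure (EuclideanSpace ℝ (Fin d) × EuclideanSpace ℝ (Fin d) ×
      EuclideanSpace ℝ (Fin d))} (h : π ∈ couplings μ) {U : EuclideanSpace ℝ (Fin d) → ℝ≥0∞}
    (hU : Measurable U) :
    ∫⁻ p, (U p.1 + U p.2.1 + U p.2.2) ∂π = 3 * ∫⁻ x, U x ∂μ := by
  obtain ⟨-, h1, h2, h3⟩ := h
  have e1 : ∫⁻ p, U p.1 ∂π = ∫⁻ x, U x ∂μ := by
    rw [← h1, lintegral_map hU measurable_fst]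
  have e2 : ∫⁻ p, U p.2.1 ∂π = ∫⁻ x, U x ∂μ := by
    rw [← h2, lintegral_map hU (by fun_prop)]
  have e3 : ∫⁻ p, U p.2.2 ∂π = ∫⁻ x, U x ∂μ := by
    rw [← h3, lintegral_map hU (by fun_prop)]
  rw [lintegral_add_left (by fun_prop), lintegral_add_left (by fun_prop), e1, e2, e3]
  ring

lemma UU_le (hF : ∀ f, IsFam (e f) (q f) (r f)) (x : EuclideanSpace ℝ (Fin d)) :
    UU e q r x ≤ 5 * ENNReal.ofReal (12 / 5) := by
  classical
  have h : ∀ i : II, Function.extend (pt q r i) (fun t => ENNReal.ofReal (hh e q r i t)) 0 x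
      ≤ ENNReal.ofReal (12 / 5) := by
    intro i
    by_cases hx : ∃ t, pt q r i t = x
    · obtain ⟨t, rfl⟩ := hx
      rw [(antilipschitz_pt hF i).injective.extend_apply]
      exact ENNReal.ofReal_le_ofReal (hh_bound hF i t).2
    · rw [Function.extend_apply' _ _ _ hx]
      exact zero_le
  unfold UU
  rw [sum_II]
  calc _ ≤ ENNReal.ofReal (12 / 5) + (ENNReal.ofReal (12 / 5) + ENNReal.ofReal (12 / 5)
        + (ENNReal.ofReal (12 / 5) + ENNReal.ofReal (12 / 5))) := by
        gcongr <;> exact h _
    _ = _ := by ring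

lemma lintegral_UU_lt_top (hF : ∀ f, IsFam (e f) (q f) (r f)) :
    ∫⁻ x, UU e q r x ∂(mu q r) < ⊤ := by
  have := isProbability_mu hF
  calc ∫⁻ x, UU e q r x ∂(mu q r) ≤ ∫⁻ _, 5 * ENNReal.ofReal (12 / 5) ∂(mu q r) :=
        lintegral_mono (fun x => UU_le hF x)
    _ = 5 * ENNReal.ofReal (12 / 5) := by simp
    _ < ⊤ := ENNReal.mul_lt_top (by norm_num) ENNReal.ofReal_lt_top

lemma kantorovich_le (hF : ∀ f, IsFam (e f) (q f) (r f)) (hperp : ⟪e true, e false⟫ = 0) :
    kantorovich (mu q r) ≤ 3 * ∫⁻ x, UU e q r x ∂(mu q r) := by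
  rw [← lintegral_coupling (plan_mem hF) (measurable_UU (e := e) hF), ← lintegral_plan hF hperp]
  exact iInf₂_le _ (plan_mem hF)

lemma ae_mem_range (hF : ∀ f, IsFam (e f) (q f) (r f)) :
    ∀ᵐ x ∂(mu q r), ∃ a : II × XX (EuclideanSpace ℝ (Fin d)), x = pt q r a.1 a.2 := by
  set S : Set (EuclideanSpace ℝ (Fin d)) := ⋃ i : II, Set.range (pt q r i) with hS
  have hSm : MeasurableSet S :=
    MeasurableSet.iUnion (fun i => (measurableEmbedding_pt hF i).measurableSet_range)
  have h : mu q r Sᶜ = 0 := by
    unfold mu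
    rw [Measure.smul_apply, nu_apply]
    have h : ∀ i, (lam d).map (pt q r i) Sᶜ = 0 := by
      intro i
      rw [Measure.map_apply (meas_pt hF i) hSm.compl]
      have : pt q r i ⁻¹' Sᶜ = ∅ := by
        ext t
        simp only [Set.mem_preimage, Set.mem_compl_iff, Set.mem_empty_iff_false, iff_false,
          not_not]
        exact Set.mem_iUnion.mpr ⟨i, t, rfl⟩
      rw [this, measure_empty]
    simp [h]
  have h' : ∀ᵐ x ∂(mu q r), x ∈ S := h
  filter_upwards [h'] with x hx
  obtain ⟨i, t, ht⟩ := Set.mem_iUnion.mp hx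
  exact ⟨(i, t), ht.symm⟩

/-- structure of an optimal Monge plan -/
lemma monge_structure (hF : ∀ f, IsFam (e f) (q f) (r f)) (hperp : ⟪e true, e false⟫ = 0)
    {T₂ T₃ : EuclideanSpace ℝ (Fin d) → EuclideanSpace ℝ (Fin d)}
    (hT : IsOptimalMonge (mu q r) T₂ T₃) (i : II) :
    ∀ᵐ t ∂(lam d), ∃ b c : II × XX (EuclideanSpace ℝ (Fin d)),
      T₂ (pt q r i t) = pt q r b.1 b.2 ∧ T₃ (pt q r i t) = pt q r c.1 c.2 ∧ Tri (i, t) b c := by
  obtain ⟨m2, m3, h2, h3, hcost⟩ := hT
  have mU := measurable_UU (e := e) hF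
  have hR := ae_mem_range hF
  have hR2 : ∀ᵐ x ∂(mu q r), ∃ a : II × XX (EuclideanSpace ℝ (Fin d)),
      T₂ x = pt q r a.1 a.2 := by
    refine ae_of_ae_map (p := fun y => ∃ a : II × XX (EuclideanSpace ℝ (Fin d)),
      y = pt q r a.1 a.2) m2.aemeasurable ?_
    rw [h2]; exact hR
  have hR3 : ∀ᵐ x ∂(mu q r), ∃ a : II × XX (EuclideanSpace ℝ (Fin d)),
      T₃ x = pt q r a.1 a.2 := by
    refine ae_of_ae_map (p := fun y => ∃ a : II × XX (EuclideanSpace ℝ (Fin d)),
      y = pt q r a.1 a.2) m3.aemeasurable ?_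
    rw [h3]; exact hR
  set F : EuclideanSpace ℝ (Fin d) → ℝ≥0∞ :=
    fun x => UU e q r x + UU e q r (T₂ x) + UU e q r (T₃ x) with hFdef
  set G : EuclideanSpace ℝ (Fin d) → ℝ≥0∞ := fun x => coulomb x (T₂ x) (T₃ x) with hGdef
  have hle : F ≤ᵐ[mu q r] G := by
    filter_upwards [hR, hR2, hR3] with x ha hb hc
    obtain ⟨a, ha⟩ := ha
    obtain ⟨b, hb⟩ := hb
    obtain ⟨c, hc⟩ := hc
    simp only [hFdef, hGdef]
    rw [hb, hc, ha]
    exact (energy_ennreal hF hperp a b c).1
  have hFint : ∫⁻ x, F x ∂(mu q r) = 3 * ∫⁻ x, UU e q r x ∂(mu q r) := by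
    have e2 : ∫⁻ x, UU e q r (T₂ x) ∂(mu q r) = ∫⁻ x, UU e q r x ∂(mu q r) := by
      conv_rhs => rw [← h2, lintegral_map mU m2]
    have e3 : ∫⁻ x, UU e q r (T₃ x) ∂(mu q r) = ∫⁻ x, UU e q r x ∂(mu q r) := by
      conv_rhs => rw [← h3, lintegral_map mU m3]
    simp only [hFdef]
    rw [lintegral_add_left (by fun_prop), lintegral_add_left (by fun_prop), e2, e3]
    ring
  have hGm : Measurable G := by
    simp only [hGdef, coulomb]
    fun_prop
  have hGint : ∫⁻ x, G x ∂(mu q r) ≤ ∫⁻ x, F x ∂(mu q r) := by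
    rw [hFint, hcost]
    exact kantorovich_le hF hperp
  have heq : F =ᵐ[mu q r] G :=
    ae_eq_of_ae_le_of_lintegral_le hle
      (by rw [hFint]; exact (ENNReal.mul_lt_top (by norm_num) (lintegral_UU_lt_top hF)).ne)
      hGm.aemeasurable hGint
  have hfin : ∀ᵐ x ∂(mu q r), ∃ a b c : II × XX (EuclideanSpace ℝ (Fin d)),
      x = pt q r a.1 a.2 ∧ T₂ x = pt q r b.1 b.2 ∧ T₃ x = pt q r c.1 c.2 ∧ Tri a b c := by
    filter_upwards [hR, hR2, hR3, heq] with x ha hb hc hx
    obtain ⟨a, ha⟩ := ha
    obtain ⟨b, hb⟩ := hb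
    obtain ⟨c, hc⟩ := hc
    refine ⟨a, b, c, ha, hb, hc, ?_⟩
    simp only [hFdef, hGdef] at hx
    rw [hb, hc, ha] at hx
    exact (energy_ennreal hF hperp a b c).2 hx
  filter_upwards [ae_pt hF hfin i] with t ⟨a, b, c, ha, hb, hc, htri⟩
  have : (i, t) = a := pt_injective hF hperp ha
  exact ⟨b, c, hb, hc, this ▸ htri⟩

/-- mass balance on the region `Q true` -/
lemma count (hF : ∀ f, IsFam (e f) (q f) (r f)) (hperp : ⟪e true, e false⟫ = 0)
    {T : EuclideanSpace ℝ (Fin d) → EuclideanSpace ℝ (Fin d)} (hT : Measurable T)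
    (hmap : (mu q r).map T = mu q r)
    (h0 : ∀ i : II, i ≠ none → i ≠ some (true, false) →
      ∀ᵐ t ∂(lam d), ∀ s, T (pt q r i t) ≠ pt q r (some (true, true)) s)
    (h1 : ∀ i : II, ∀ᵐ t ∂(lam d), ∀ s, T (pt q r i t) = pt q r (some (true, true)) s → s = t)
    {B : Set (XX (EuclideanSpace ℝ (Fin d)))} (hB : MeasurableSet B) :
    2 * lam d (B ∩ {t | T (pt q r none t) = pt q r (some (true, true)) t})
      + lam d (B ∩ {t | T (pt q r (some (true, false)) t) = pt q r (some (true, true)) t})
      = lam d B := by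
  set S := pt q r (some (true, true)) '' B with hS
  have hSm : MeasurableSet S := (measurableEmbedding_pt hF _).measurableSet_image' hB
  have e1 : nu q r (T ⁻¹' S) = nu q r S := by
    have h := congrArg (fun m => m S) hmap
    simp only [Measure.map_apply hT hSm, mu, Measure.smul_apply, smul_eq_mul] at h
    exact (ENNReal.mul_right_inj c0_ne_zero c0_ne_top).mp h
  have e2 : nu q r S = lam d B := by
    rw [nu_apply]
    have h : ∀ i : II, i ≠ some (true, true) → (lam d).map (pt q r i) S = 0 := by
      intro i hi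
      rw [Measure.map_apply (meas_pt hF i) hSm]
      have : pt q r i ⁻¹' S = ∅ := by
        ext t
        simp only [Set.mem_preimage, Set.mem_empty_iff_false, iff_false, hS]
        rintro ⟨s, -, hs⟩
        have := pt_injective hF hperp (a := (some (true, true), s)) (b := (i, t)) hs
        exact hi (congrArg Prod.fst this).symm
      rw [this, measure_empty]
    have h' : (lam d).map (pt q r (some (true, true))) S = lam d B := by
      rw [Measure.map_apply (meas_pt hF _) hSm, hS,
        Set.preimage_image_eq _ (antilipschitz_pt hF _).injective]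
    rw [sum_II, h none (by simp), h (some (true, false)) (by simp),
      h (some (false, true)) (by simp), h (some (false, false)) (by simp), h']
    simp [ww]
  have e3 : ∀ i : II, (lam d).map (pt q r i) (T ⁻¹' S)
      = lam d (B ∩ {t | T (pt q r i t) = pt q r (some (true, true)) t}) := by
    intro i
    rw [Measure.map_apply (meas_pt hF i) (hT hSm)]
    apply measure_congr
    filter_upwards [h1 i] with t ht
    apply propext
    constructor
    · rintro ⟨s, hs, hs'⟩
      have := ht s hs'.symm
      subst this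
      exact ⟨hs, hs'.symm⟩
    · rintro ⟨hb, hb'⟩
      exact ⟨t, hb, hb'.symm⟩
  have e4 : ∀ i : II, i ≠ none → i ≠ some (true, false) →
      lam d (B ∩ {t | T (pt q r i t) = pt q r (some (true, true)) t}) = 0 := by
    intro i hi hi'
    rw [← nonpos_iff_eq_zero]
    refine (measure_mono (Set.inter_subset_right)).trans ?_
    rw [nonpos_iff_eq_zero]
    have := h0 i hi hi'
    rw [ae_iff] at this
    refine measure_mono_null ?_ this
    intro t ht hcon
    exact hcon t ht
  rw [e2, nu_apply, sum_II, e3, e3, e3, e3, e3, e4 (some (true, true)) (by simp) (by simp),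
    e4 (some (false, true)) (by simp) (by simp), e4 (some (false, false)) (by simp) (by simp)] at e1
  simpa [ww] using e1

/-- combinatorial consequences of `Tri` for the second entry -/
lemma tri_snd {i : II} {t : XX (EuclideanSpace ℝ (Fin d))}
    {b c : II × XX (EuclideanSpace ℝ (Fin d))} (h : Tri (i, t) b c) :
    (b.1 = some (true, true) → b.2 = t ∧ (i = none ∨ i = some (true, false)) ∧
      c.1 ≠ some (true, true)) ∧
    (c.1 = some (true, true) → c.2 = t ∧ (i = none ∨ i = some (true, false)) ∧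
      b.1 ≠ some (true, true)) ∧
    (i = some (true, false) → b.1 = some (true, true) ∨ c.1 = some (true, true)) := by
  obtain ⟨u, f, h⟩ := h
  obtain ⟨b1, b2⟩ := b
  obtain ⟨c1, c2⟩ := c
  rcases h with ⟨h1, h2, h3⟩ | ⟨h1, h2, h3⟩ | ⟨h1, h2, h3⟩ | ⟨h1, h2, h3⟩ | ⟨h1, h2, h3⟩ |
    ⟨h1, h2, h3⟩ <;> simp only [Prod.mk.injEq] at h1 h2 h3 <;>
    obtain ⟨rfl, rfl⟩ := h1 <;> obtain ⟨rfl, rfl⟩ := h2 <;> obtain ⟨rfl, rfl⟩ := h3 <;>
    cases f <;> simp

theorem no_monge (hF : ∀ f, IsFam (e f) (q f) (r f)) (hperp : ⟪e true, e false⟫ = 0) :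
    ¬ ∃ T₂ T₃, IsOptimalMonge (mu q r) T₂ T₃ := by
  rintro ⟨T₂, T₃, hT⟩
  have hst := fun i => monge_structure hF hperp hT i
  obtain ⟨m2, m3, h2, h3, -⟩ := hT
  -- consequences of the structure
  have key : ∀ i : II, ∀ᵐ t ∂(lam d),
      (∀ s, T₂ (pt q r i t) = pt q r (some (true, true)) s →
        s = t ∧ (i = none ∨ i = some (true, false)) ∧
          ∀ s', T₃ (pt q r i t) ≠ pt q r (some (true, true)) s') ∧
      (∀ s, T₃ (pt q r i t) = pt q r (some (true, true)) s →
        s = t ∧ (i = none ∨ i = some (true, false)) ∧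
          ∀ s', T₂ (pt q r i t) ≠ pt q r (some (true, true)) s') ∧
      (i = some (true, false) → T₂ (pt q r i t) = pt q r (some (true, true)) t ∨
        T₃ (pt q r i t) = pt q r (some (true, true)) t) := by
    intro i
    filter_upwards [hst i] with t ht
    obtain ⟨b, c, hb, hc, htri⟩ := ht
    obtain ⟨k1, k2, k3⟩ := tri_snd htri
    have inj : ∀ {x y : II × XX (EuclideanSpace ℝ (Fin d))},
        pt q r x.1 x.2 = pt q r y.1 y.2 → x = y := fun h => pt_injective hF hperp h
    refine ⟨?_, ?_, ?_⟩
    · intro s hs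
      have hbs := inj (x := b) (y := (some (true, true), s)) (hb.symm.trans hs)
      obtain ⟨l1, l2, l3⟩ := k1 (by rw [hbs])
      refine ⟨by rw [← l1, hbs], l2, ?_⟩
      intro s' hs'
      have hcs := inj (x := c) (y := (some (true, true), s')) (hc.symm.trans hs')
      exact l3 (by rw [hcs])
    · intro s hs
      have hcs := inj (x := c) (y := (some (true, true), s)) (hc.symm.trans hs)
      obtain ⟨l1, l2, l3⟩ := k2 (by rw [hcs])
      refine ⟨by rw [← l1, hcs], l2, ?_⟩
      intro s' hs'
      have hbs := inj (x := b) (y := (some (true, true), s')) (hb.symm.trans hs')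
      exact l3 (by rw [hbs])
    · intro hi
      rcases k3 hi with h | h
      · left
        rw [hb, h, (k1 h).1]
      · right
        rw [hc, h, (k2 h).1]
  set A2 := {t | T₂ (pt q r none t) = pt q r (some (true, true)) t} with hA2
  set A3 := {t | T₃ (pt q r none t) = pt q r (some (true, true)) t} with hA3
  set R2 := {t | T₂ (pt q r (some (true, false)) t) = pt q r (some (true, true)) t} with hR2
  set R3 := {t | T₃ (pt q r (some (true, false)) t) = pt q r (some (true, true)) t} with hR3
  have c2 : ∀ {B : Set (XX (EuclideanSpace ℝ (Fin d)))}, MeasurableSet B →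
      2 * lam d (B ∩ A2) + lam d (B ∩ R2) = lam d B := by
    intro B hB
    refine count hF hperp m2 h2 ?_ ?_ hB
    · intro i hi hi'
      filter_upwards [key i] with t ht s hs
      have := (ht.1 s hs).2.1
      tauto
    · intro i
      filter_upwards [key i] with t ht s hs
      exact (ht.1 s hs).1
  have c3 : ∀ {B : Set (XX (EuclideanSpace ℝ (Fin d)))}, MeasurableSet B →
      2 * lam d (B ∩ A3) + lam d (B ∩ R3) = lam d B := by
    intro B hB
    refine count hF hperp m3 h3 ?_ ?_ hB
    · intro i hi hi'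
      filter_upwards [key i] with t ht s hs
      have := (ht.2.1 s hs).2.1
      tauto
    · intro i
      filter_upwards [key i] with t ht s hs
      exact (ht.2.1 s hs).1
  have mA2 : MeasurableSet A2 :=
    measurableSet_eq_fun (m2.comp (meas_pt hF _)) (meas_pt hF _)
  have mA3 : MeasurableSet A3 :=
    measurableSet_eq_fun (m3.comp (meas_pt hF _)) (meas_pt hF _)
  have mR2 : MeasurableSet R2 :=
    measurableSet_eq_fun (m2.comp (meas_pt hF _)) (meas_pt hF _)
  have hRR : ∀ {B : Set (XX (EuclideanSpace ℝ (Fin d)))}, MeasurableSet B →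
      lam d (B ∩ R2) + lam d (B ∩ R3) = lam d B := by
    intro B hB
    rw [← measure_inter_add_sdiff B mR2]
    congr 1
    apply measure_congr
    filter_upwards [key (some (true, false))] with t ht
    apply propext
    constructor
    · rintro ⟨hb, hb'⟩
      exact ⟨hb, fun h => (ht.2.1 t hb').2.2 t h⟩
    · rintro ⟨hb, hb'⟩
      refine ⟨hb, ?_⟩
      rcases ht.2.2 rfl with h | h
      · exact absurd h hb'
      · exact h
  -- now count
  have fin : ∀ B : Set (XX (EuclideanSpace ℝ (Fin d))), lam d B ≠ ⊤ := fun B => measure_ne_top _ _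
  have main : ∀ {B : Set (XX (EuclideanSpace ℝ (Fin d)))}, MeasurableSet B →
      2 * (lam d (B ∩ A2)).toReal + 2 * (lam d (B ∩ A3)).toReal = (lam d B).toReal := by
    intro B hB
    have t2 := congrArg ENNReal.toReal (c2 hB)
    have t3 := congrArg ENNReal.toReal (c3 hB)
    have tr := congrArg ENNReal.toReal (hRR hB)
    rw [ENNReal.toReal_add (ENNReal.mul_ne_top (by norm_num) (fin _)) (fin _),
      ENNReal.toReal_mul] at t2 t3
    rw [ENNReal.toReal_add (fin _) (fin _)] at tr
    simp only [ENNReal.toReal_ofNat] at t2 t3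
    linarith
  have z2 : (lam d A2).toReal = 0 := by
    have := main mA2
    rw [Set.inter_self] at this
    have h0 : 0 ≤ (lam d (A2 ∩ A3)).toReal := ENNReal.toReal_nonneg
    have h1 : 0 ≤ (lam d A2).toReal := ENNReal.toReal_nonneg
    linarith
  have z3 : (lam d A3).toReal = 0 := by
    have := main mA3
    rw [Set.inter_self] at this
    have h0 : 0 ≤ (lam d (A3 ∩ A2)).toReal := ENNReal.toReal_nonneg
    have h1 : 0 ≤ (lam d A3).toReal := ENNReal.toReal_nonneg
    linarith
  have zu := main MeasurableSet.univ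
  rw [Set.univ_inter, Set.univ_inter, z2, z3] at zu
  have hpos : 0 < (lam d Set.univ).toReal :=
    ENNReal.toReal_pos lam_univ_pos.ne' (fin _)
  linarith

end plan

end Vale.Agent.P121
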