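import Vale.Agent.P121.Family

/-!
# Global minimality of critical triples
-/

namespace Vale.Agent.P121

open scoped RealInnerProductSpace
open Metric

variable {E : Type*} [NormedAddCommGroup E] [InnerProductSpace ℝ E]

/-- Real-valued Coulomb energy (meaningful for distinct points). -/
noncomputable def cR (x y z : E) : ℝ := ‖x - y‖⁻¹ + ‖x - z‖⁻¹ + ‖y - z‖⁻¹

/-- the centre of the `Q` potential -/
noncomputable def mc (e : E) : E := (1 - 1 / 800000 : ℝ) • e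

omit [InnerProductSpace ℝ E] in
lemma inv_cube_le {v : E} (hv : 1 / 2 ≤ ‖v‖) : (‖v‖ ^ 3)⁻¹ ≤ 8 := by
  rw [inv_le_comm₀ (by positivity) (by norm_num)]
  have : (1 / 2 : ℝ) ^ 3 ≤ ‖v‖ ^ 3 := pow_le_pow_left₀ (by norm_num) hv 3
  norm_num at this ⊢
  exact this

theorem global_min {e x1 y1 z x y : E} (he : ‖e‖ = 1) (hR : Region e x1 y1 z)
    (hS : Sol e x1 y1 z) (hxy : x ≠ y) (hxz : x ≠ z) (hyz : y ≠ z) :
    cR x1 y1 z + 500000 * ‖x1‖ ^ 2 + 500000 * ‖y1 - mc e‖ ^ 2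
      + 499988 * (‖x - x1‖ ^ 2 + ‖y - y1‖ ^ 2)
      ≤ cR x y z + 500000 * ‖x‖ ^ 2 + 500000 * ‖y - mc e‖ ^ 2 := by
  have a1 := abs_le.mp (hR.xy he)
  have a2 := abs_le.mp (hR.xz he)
  have a3 := abs_le.mp (hR.yz he)
  have nz : ∀ {w : E}, 1 / 2 ≤ ‖w‖ → w ≠ 0 := by
    intro w hw
    rw [← norm_pos_iff]; linarith
  have k1 := inv_norm_ge (w := x - y) (v := x1 - y1) (κ := 8) (sub_ne_zero.mpr hxy)
    (nz (by linarith)) (inv_cube_le (by linarith))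
  have k2 := inv_norm_ge (w := x - z) (v := x1 - z) (κ := 8) (sub_ne_zero.mpr hxz)
    (nz (by linarith)) (inv_cube_le (by linarith))
  have k3 := inv_norm_ge (w := y - z) (v := y1 - z) (κ := 8) (sub_ne_zero.mpr hyz)
    (nz (by linarith)) (inv_cube_le (by linarith))
  set dx := x - x1 with hdx
  set dy := y - y1 with hdy
  have e1 : x - y - (x1 - y1) = dx - dy := by rw [hdx, hdy]; abel
  have e2 : x - z - (x1 - z) = dx := by rw [hdx]; abel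
  have e3 : y - z - (y1 - z) = dy := by rw [hdy]; abel
  rw [e1] at k1
  rw [e2] at k2
  rw [e3] at k3
  have S1 : (1000000 : ℝ) * ⟪x1, dx⟫ = ⟪phi (x1 - y1), dx⟫ + ⟪phi (x1 - z), dx⟫ := by
    rw [← inner_add_left, ← hS.1, inner_smul_left]; simp
  have S2 : (1000000 : ℝ) * ⟪y1 - mc e, dy⟫ = - ⟪phi (x1 - y1), dy⟫ + ⟪phi (y1 - z), dy⟫ := by
    have : - ⟪phi (x1 - y1), dy⟫ = ⟪phi (y1 - x1), dy⟫ := by
      rw [phi_sub_comm y1 x1, inner_neg_left]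
    rw [this, ← inner_add_left, ← hS.2, inner_smul_left]; simp [mc]
  have X : ‖x‖ ^ 2 = ‖x1‖ ^ 2 + 2 * ⟪x1, dx⟫ + ‖dx‖ ^ 2 := by
    have : x = x1 + dx := by rw [hdx]; abel
    rw [this, norm_add_sq_real]
  have Y : ‖y - mc e‖ ^ 2 = ‖y1 - mc e‖ ^ 2 + 2 * ⟪y1 - mc e, dy⟫ + ‖dy‖ ^ 2 := by
    have : y - mc e = (y1 - mc e) + dy := by rw [hdy]; abel
    rw [this, norm_add_sq_real]
  have I : ⟪phi (x1 - y1), dx - dy⟫ = ⟪phi (x1 - y1), dx⟫ - ⟪phi (x1 - y1), dy⟫ :=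
    inner_sub_right _ _ _
  have D : ‖dx - dy‖ ^ 2 ≤ 2 * ‖dx‖ ^ 2 + 2 * ‖dy‖ ^ 2 := by
    have h := norm_sub_le dx dy
    have h0 := norm_nonneg (dx - dy)
    nlinarith [sq_nonneg (‖dx‖ - ‖dy‖)]
  rw [I] at k1
  rw [X, Y]
  unfold cR
  linarith

end Vale.Agent.P121
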